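import Vale.Agent.P233.H372.C1a

/-! Block C1 (helper372): energies of the radial and of the backward potentials, uniformly in time;
convergence of the potentials and gradients for integrable weights. -/

set_option linter.all false

open MeasureTheory Filter Topology Set
open scoped ENNReal NNReal InnerProductSpace

universe u

namespace Vale.Agent.P233.H372

open Vale.Agent.P233.PA (en OutA PotLim)
open Vale.Agent.P233.PC

section

variable {M : Type u} [MetricSpace M] [SecondCountableTopology M] [MeasurableSpace M] [BorelSpace M]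
  {m : Measure M}

/-- the energy of a Lipschitz function with bounded support -/
theorem cl_energy (hC : IsDir (sob m)) (hfin : ∀ (x : M) (r : ℝ), m (Metric.ball x r) < ∞)
    {v : M → ℝ} {L : ℝ≥0} (hv : LipschitzWith L v) {x₀ : M} {R : ℝ}
    (hR : ∀ x, R ≤ dist x₀ x → v x = 0) :
    I ((sob m).Γ (cl m v) (cl m v)) ≤ (L : ℝ) ^ 2 * (m (Metric.ball x₀ R)).toReal := by
  have hW := H183.cl_mem_W hfin hv hR
  have h1 := H183.Γ_cl_le hfin hv hR
  have h2 := H183.Γ_loc0 hC hW hW 0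
  have hb : MeasurableSet (Metric.ball x₀ R) := Metric.isOpen_ball.measurableSet
  have h3 : ∀ᵐ x ∂m, (sob m).Γ (cl m v) (cl m v) x ≤
      (Metric.ball x₀ R).indicator (fun _ => (L : ℝ) ^ 2) x := by
    filter_upwards [h1, h2, H183.cl_cont (m := m) hv.continuous] with x a1 a2 a3
    by_cases hx : x ∈ Metric.ball x₀ R
    · rw [indicator_of_mem hx]; exact a1
    · rw [indicator_of_notMem hx]
      rw [Metric.mem_ball, not_lt, dist_comm] at hx
      rw [a2 (by rw [a3]; exact hR x hx)]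
  calc I ((sob m).Γ (cl m v) (cl m v))
      ≤ ∫ x, (Metric.ball x₀ R).indicator (fun _ => (L : ℝ) ^ 2) x ∂m :=
        integral_mono_ae (int_of_mem (hC.mem1 _ hW))
          ((integrable_indicator_iff hb).2 (integrableOn_const (hfin x₀ R).ne)) h3
    _ = (L : ℝ) ^ 2 * (m (Metric.ball x₀ R)).toReal := by
        rw [integral_indicator hb, setIntegral_const, smul_eq_mul, mul_comm]
        rfl

/-- the energy of the radial potentials is bounded -/
theorem zc_energy (hC : IsDir (sob m)) (hfin : ∀ (x : M) (r : ℝ), m (Metric.ball x r) < ∞)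
    {p : M} {s₀ C₀ : ℝ} (hs : 0 < s₀) (hC0 : 0 ≤ C₀) :
    ∃ E : ℝ, ∀ t ∈ Icc (0 : ℝ) 1, I ((sob m).Γ (zc m p s₀ C₀ t) (zc m p s₀ C₀ t)) ≤ E := by
  refine ⟨2 * C₀ / s₀ * (m (Metric.ball p (√(2 * C₀ * (1 + s₀))))).toReal, fun t ht => ?_⟩
  have h1 := cl_energy hC hfin (zr_lip' (p := p) hs ht.1 hC0) (x₀ := p)
    (R := √(2 * C₀ * (1 + s₀))) (fun x hx => zr_out hs ht.1 (le_trans (Real.sqrt_le_sqrt (by
      have := ht.2
      have h2 : t + s₀ ≤ 1 + s₀ := by linarith
      exact mul_le_mul_of_nonneg_left h2 (by positivity))) hx))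
  rw [Real.coe_toNNReal _ (Real.sqrt_nonneg _), Real.sq_sqrt (by positivity)] at h1
  exact h1

/-- the energy of the limit backward potentials is bounded -/
theorem φ_energy (hC : IsDir (sob m)) (hfin : ∀ (x : M) (r : ℝ), m (Metric.ball x r) < ∞)
    {N : ℝ} {p : M} {s₀ C₀ : ℝ} {U : Ultrafilter ℕ} {φ u : ℕ → ℝ → M →ₘ[m] ℝ} {φ₀ : ℝ → M → ℝ}
    {L B R₀ c : ℝ} (hp : PotLim m N p s₀ C₀ U φ u φ₀ L B R₀ c) :
    ∃ E : ℝ, ∀ t ∈ Icc (0 : ℝ) 1, I ((sob m).Γ (cl m (φ₀ t)) (cl m (φ₀ t))) ≤ E := by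
  refine ⟨_, fun t ht => cl_energy hC hfin (v := φ₀ t) (L := Real.toNNReal (max L 0)) ?_ (x₀ := p)
    (R := R₀) (hp.far t ht)⟩
  refine lipschitz_of_abs_sub_le (le_max_right _ _) fun x y => ?_
  have := hp.lip t ht t ht x y
  rw [sub_self, abs_zero, zero_add] at this
  exact this.trans (mul_le_mul_of_nonneg_right (le_max_left _ _) dist_nonneg)

/-- the radial potentials are Lipschitz in time -/
theorem zc_time {p : M} {s₀ C₀ : ℝ} (hs : 0 < s₀) (hC0 : 0 ≤ C₀) {s t : ℝ}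
    (hs' : s ∈ Icc (0 : ℝ) 1) (ht : t ∈ Icc (0 : ℝ) 1) :
    ∀ᵐ x ∂m, |zc m p s₀ C₀ s x - zc m p s₀ C₀ t x| ≤ C₀ / s₀ * |s - t| := by
  have key : ∀ {a b : ℝ}, a ∈ Icc (0 : ℝ) 1 → a ≤ b → ∀ x : M,
      |zr p s₀ C₀ a x - zr p s₀ C₀ b x| ≤ C₀ / s₀ * (b - a) := by
    intro a b ha hab x
    obtain ⟨h1, h2⟩ := H790.zr_time p (s₀ := s₀) (s := a) (t := b) (by linarith [ha.1]) hab hC0 x
    rw [abs_of_nonneg h1]
    refine h2.trans (mul_le_mul_of_nonneg_right ?_ (sub_nonneg.2 hab))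
    exact div_le_div_of_nonneg_left hC0 hs (by linarith [ha.1])
  filter_upwards [zc_ae (m := m) (p := p) hs hs'.1 hC0, zc_ae (m := m) (p := p) hs ht.1 hC0]
    with x h1 h2
  rw [h1, h2]
  rcases le_total s t with h | h
  · rw [abs_of_nonpos (sub_nonpos.2 h), neg_sub]
    exact key hs' h x
  · rw [abs_of_nonneg (sub_nonneg.2 h), abs_sub_comm]
    exact key ht h x

end

end Vale.Agent.P233.H372
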