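import Vale.Agent.P233.H372.TimeLip
import Vale.Agent.P233.Gig.IfA

/-! Block A5t (helper372), in the form of the interface of part A: the fields `time`, `lapε` of
`PA.LevU`, `PA.LevF`, and the field `same` of `PA.OutA`. -/

set_option linter.all false

open MeasureTheory Filter Topology Set
open scoped ENNReal NNReal InnerProductSpace

universe u

namespace Vale.Agent.P233.H372

variable {M : Type u} [MeasurableSpace M] {m : Measure M} {C : Calc m} {K : ℝ}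
  {P : ℝ → (M →ₘ[m] ℝ) → (M →ₘ[m] ℝ)}

/-- `LevU.time`, `LevU.lapε` with every `D ≥ cA N L + D₀²`, `D₀²` a bound of `Γ(u_t,u_t)`. -/
theorem LevU_time [SigmaFinite m] (hC : IsGamma C) {K' N : ℝ} (hN : 0 < N) (hB : C.BE K' N)
    (hP : Heat C K P) {ε : ℝ} {a l : M →ₘ[m] ℝ} {φ u : ℝ → M →ₘ[m] ℝ} (h : Fam C P ε a l φ u)
    (ha : a ∈ C.A) {L : ℝ} (hL : 0 ≤ L) (haL : ∀ᵐ x ∂m, C.Γ a a x ≤ L ^ 2)
    (hεK : 8 * ε ^ 2 * |K'| ≤ 1) {D₀ D : ℝ}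
    (hlip : ∀ t ∈ Icc (0 : ℝ) 1, ∀ᵐ x ∂m, C.Γ (u t) (u t) x ≤ D₀ ^ 2)
    (hD : cA N L + D₀ ^ 2 ≤ D) :
    (∀ s ∈ Icc (0 : ℝ) 1, ∀ t ∈ Icc (0 : ℝ) 1, ∀ᵐ x ∂m, |u t x - u s x| ≤ D * |t - s|) ∧
      ∀ t ∈ Icc (0 : ℝ) 1, ∀ᵐ x ∂m, ε * |C.lap (u t) x| ≤ D := by
  obtain ⟨h1, h2⟩ := Fam_u_lip hC hN hB hP h ha hL haL hεK
  have hc := cA_nonneg (N := N) hL
  have hε := h.pair.hε
  constructor
  · intro s hs t ht
    filter_upwards [h2 s hs t ht] with x hx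
    refine hx.trans (mul_le_mul_of_nonneg_right ?_ (abs_nonneg _))
    nlinarith [sq_nonneg D₀]
  · intro t ht
    filter_upwards [h1 t ht, hlip t ht,
      hC.toIsDir.Γ_nonneg_ae (hC.test_A (h.pair.u_mem t ht).1).1] with x b1 b2 b3
    rw [← abs_of_pos hε, ← abs_mul, abs_le]
    have := abs_le.1 b1
    constructor <;> linarith

/-- `LevF.time`, `LevF.lapε` -/
theorem LevF_time [SigmaFinite m] (hC : IsGamma C) {K' N : ℝ} (hN : 0 < N) (hB : C.BE K' N)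
    (hP : Heat C K P) {ε : ℝ} {a l : M →ₘ[m] ℝ} {φ u : ℝ → M →ₘ[m] ℝ} (h : Fam C P ε a l φ u)
    (ha : a ∈ C.A) {L : ℝ} (hL : 0 ≤ L) (haL : ∀ᵐ x ∂m, C.Γ a a x ≤ L ^ 2)
    (hεK : 8 * ε ^ 2 * |K'| ≤ 1) (hε1 : ε ≤ 1) (hl : l ∈ C.TestI) {D₀ B' B'' D : ℝ}
    (hB0' : 0 ≤ B') (hB0'' : 0 ≤ B'')
    (hlu : ∀ᵐ x ∂m, C.Γ (u 1) (u 1) x ≤ D₀ ^ 2)
    (hlip : ∀ t ∈ Icc (0 : ℝ) 1, ∀ᵐ x ∂m, C.Γ (φ t) (φ t) x ≤ D₀ ^ 2)
    (hl1 : ∀ᵐ x ∂m, C.Γ l l x ≤ B') (hl2 : ∀ᵐ x ∂m, |C.lap l x| ≤ B'')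
    (hD : cA N L + 4 * D₀ ^ 2 + 2 * B' + B'' ≤ D) :
    (∀ s ∈ Icc (0 : ℝ) 1, ∀ t ∈ Icc (0 : ℝ) 1, ∀ᵐ x ∂m, |φ t x - φ s x| ≤ D * |t - s|) ∧
      ∀ t ∈ Icc (0 : ℝ) 1, ∀ᵐ x ∂m, ε * |C.lap (φ t) x| ≤ D := by
  obtain ⟨h1, h2⟩ := Fam_φ_lip hC hN hB hP h ha hL haL hεK hε1 hl (sq_nonneg D₀) hB0' hB0''
    hlu hl1 hl2
  have hc := cA_nonneg (N := N) hL
  have hε := h.pair.hε
  constructor
  · intro s hs t ht
    filter_upwards [h2 s hs t ht] with x hx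
    refine hx.trans (mul_le_mul_of_nonneg_right ?_ (abs_nonneg _))
    nlinarith [sq_nonneg D₀]
  · intro t ht
    filter_upwards [h1 t ht, hlip t ht,
      hC.toIsDir.Γ_nonneg_ae (hC.test_A (h.pair.φ_mem t ht).1).1] with x b1 b2 b3
    rw [← abs_of_pos hε, ← abs_mul, abs_le]
    have := abs_le.1 b1
    constructor <;> linarith

/-- comparison: `v ≤ w + d` is propagated (`d ≥ 0`, `c > 0`) by `ex (c v) - 1 = P …` -/
theorem log_le_of_le (hP : Heat C K P) {c d : ℝ} (hd : 0 ≤ d) {v w v' w' : M →ₘ[m] ℝ} {τ : ℝ}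
    (hτ : 0 ≤ τ) (hv : MemLp (ex (c • v) - 1 : M →ₘ[m] ℝ) 2 m)
    (hw : MemLp (ex (c • w) - 1 : M →ₘ[m] ℝ) 2 m) (h : ∀ᵐ x ∂m, c * v x ≤ c * w x + d)
    (ev : ex (c • v') - 1 = P τ (ex (c • v) - 1)) (ew : ex (c • w') - 1 = P τ (ex (c • w) - 1)) :
    ∀ᵐ x ∂m, c * v' x ≤ c * w' x + d := by
  set e := Real.exp d with he
  have he1 : 1 ≤ e := Real.one_le_exp hd
  have h1 := hP.le τ hτ (ex (c • v) - 1 + (-e) • (ex (c • w) - 1))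
    (mem_add hv (mem_smul _ hw)) (e - 1) (by linarith) (by
    filter_upwards [h, add_ae (ex (c • v) - 1) ((-e) • (ex (c • w) - 1)),
      smul_ae (ex (c • w) - 1) (-e), ex_smul_sub_one_ae c v, ex_smul_sub_one_ae c w]
      with x b1 b2 b3 b4 b5
    rw [b2, b3, b4, b5]
    have h2 : Real.exp (c * v x) ≤ Real.exp (c * w x) * e := by
      rw [he, ← Real.exp_add]; exact Real.exp_le_exp.2 b1
    linarith)
  rw [hP.add τ hτ _ _ hv (mem_smul _ hw), hP.smul τ hτ _ _ hw, ← ev, ← ew] at h1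
  filter_upwards [h1, add_ae (ex (c • v') - 1) ((-e) • (ex (c • w') - 1)),
    smul_ae (ex (c • w') - 1) (-e), ex_smul_sub_one_ae c v', ex_smul_sub_one_ae c w']
    with x b1 b2 b3 b4 b5
  rw [b2, b3, b4, b5] at b1
  have h2 : Real.exp (c * v' x) ≤ Real.exp (c * w' x + d) := by
    rw [Real.exp_add]
    linarith
  exact Real.exp_le_exp.1 h2

/-- Potentials with different final densities: if `|l - l'| ≤ D` then `|φ - φ'| ≤ ε D`. -/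
theorem Fam_same (hC : IsGamma C) (hP : Heat C K P) {ε : ℝ} {a a' l l' : M →ₘ[m] ℝ}
    {φ u φ' : ℝ → M →ₘ[m] ℝ} (h : Fam C P ε a l φ u) (h' : Fam C P ε a' l' φ' u) {D : ℝ}
    (hD : 0 ≤ D) (hl : ∀ᵐ x ∂m, |l x - l' x| ≤ D) :
    ∀ t ∈ Icc (0 : ℝ) 1, ∀ᵐ x ∂m, |φ t x - φ' t x| ≤ D * ε := by
  intro t ht
  have hε := h.pair.hε
  have h1 : (1 : ℝ) ∈ Icc (0 : ℝ) 1 := right_mem_Icc.2 zero_le_one
  have hτ : 0 ≤ ε * (1 - t) / 2 := by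
    have := mul_nonneg hε.le (sub_nonneg.2 ht.2); linarith
  have m1 := hC.memLp _ (hC.test_A (h.pair.f_mem 1 h1).1).1
  have m2 := hC.memLp _ (hC.test_A (h'.pair.f_mem 1 h1).1).1
  have e1 := h.pair.f_eq t ht
  have e2 := h'.pair.f_eq t ht
  have key : ∀ᵐ x ∂m, |ε⁻¹ * φ 1 x - ε⁻¹ * φ' 1 x| ≤ D := by
    rw [h.fin, h'.fin]
    filter_upwards [hl, add_ae (u 1) (ε • l), add_ae (u 1) (ε • l'), smul_ae l ε, smul_ae l' ε]
      with x b1 b2 b3 b4 b5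
    rw [b2, b3, b4, b5]
    have e : ε⁻¹ * (u 1 x + ε * l x) - ε⁻¹ * (u 1 x + ε * l' x) = l x - l' x := by
      field_simp; ring
    rwa [e]
  have r1 := log_le_of_le hP hD hτ m1 m2 (by
    filter_upwards [key] with x hx
    have := (abs_le.1 hx).2
    linarith) e1 e2
  have r2 := log_le_of_le hP hD hτ m2 m1 (by
    filter_upwards [key] with x hx
    have := (abs_le.1 hx).1
    linarith) e2 e1
  filter_upwards [r1, r2] with x b1 b2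
  have e3 : φ t x - φ' t x = ε * (ε⁻¹ * φ t x - ε⁻¹ * φ' t x) := by field_simp
  rw [e3, abs_mul, abs_of_pos hε, mul_comm D]
  refine mul_le_mul_of_nonneg_left ?_ hε.le
  rw [abs_le]
  constructor <;> linarith

end Vale.Agent.P233.H372
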