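import Vale.Agent.P233.H372.C1b

/-! Block C1 (helper372): `PC.Blk_C1` from the potential half (`c1pot`) and the two-time half
(helper305). -/

set_option linter.all false

open MeasureTheory Filter Topology Set
open scoped ENNReal NNReal InnerProductSpace Interval

universe u

namespace Vale.Agent.P233.H372

open Vale.Agent.P233.PA (en OutA PotLim)
open Vale.Agent.P233.PC

/-- The fields of `LimOf`, `Lim` about the two-time densities. -/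
structure RHalf {M : Type u} [MetricSpace M] [MeasurableSpace M] {m : Measure M}
    (P : ℝ → (M →ₘ[m] ℝ) → (M →ₘ[m] ℝ)) (p : M) (s₀ C₀ : ℝ) (U : Ultrafilter ℕ)
    (u : ℕ → ℝ → M →ₘ[m] ℝ) (φ : (M →ₘ[m] ℝ) → ℕ → ℝ → M →ₘ[m] ℝ)
    (ρ : ℝ → M →ₘ[m] ℝ) (R : ℝ → ℝ → (M →ₘ[m] ℝ) → (M →ₘ[m] ℝ)) : Prop where
  R_lim : ∀ t ∈ Ioc (0 : ℝ) 1, ∀ r ∈ Ioc (0 : ℝ) 1, ∀ k, L2i m k → ∀ b : M →ₘ[m] ℝ,
    MemLp b 2 m → Tendsto (fun n => I (b * RE P (en n) (φ 0 n) (u n) t r k)) U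
      (𝓝 (I (b * R t r k)))
  R_mem : ∀ t ∈ Ioc (0 : ℝ) 1, ∀ r ∈ Ioc (0 : ℝ) 1, ∀ k, L2i m k → L2i m (R t r k)
  R_add : ∀ t ∈ Ioc (0 : ℝ) 1, ∀ r ∈ Ioc (0 : ℝ) 1, ∀ k k', L2i m k → L2i m k' →
    R t r (k + k') = R t r k + R t r k'
  R_smul : ∀ t ∈ Ioc (0 : ℝ) 1, ∀ r ∈ Ioc (0 : ℝ) 1, ∀ (c : ℝ) k, L2i m k →
    R t r (c • k) = c • R t r k
  R_nonneg : ∀ t ∈ Ioc (0 : ℝ) 1, ∀ r ∈ Ioc (0 : ℝ) 1, ∀ k, L2i m k → 0 ≤ k → 0 ≤ R t r k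
  R_le : ∀ t ∈ Ioc (0 : ℝ) 1, ∀ r ∈ Ioc (0 : ℝ) 1, ∀ k, L2i m k → ∀ B : ℝ,
    (∀ᵐ x ∂m, |k x| ≤ B) → ∀ᵐ x ∂m, |R t r k x| ≤ B * ρ t x
  R_symm : ∀ t ∈ Ioc (0 : ℝ) 1, ∀ r ∈ Ioc (0 : ℝ) 1, ∀ k b, L2i m k → L2i m b →
    I (b * R t r k) = I (k * R r t b)
  R_diag : ∀ t ∈ Ioc (0 : ℝ) 1, ∀ k, L2i m k → R t t k = k * ρ t
  R_mass : ∀ t ∈ Ioc (0 : ℝ) 1, ∀ r ∈ Ioc (0 : ℝ) 1, ∀ k, L2i m k → MemLp k 1 m →
    MemLp (R t r k) 1 m ∧ I (R t r k) = I (k * ρ r)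
  R_sq : ∀ t ∈ Ioc (0 : ℝ) 1, ∀ r ∈ Ioc (0 : ℝ) 1, ∀ k, L2i m k →
    R t r k ^ 2 ≤ ρ t * R t r (k ^ 2)
  R_gram : ∀ s ∈ Ioc (0 : ℝ) 1, ∀ r ∈ Ioc (0 : ℝ) 1, ∀ t ∈ Ioc (0 : ℝ) 1, ∀ a b c, L2i m a →
    L2i m b → L2i m c → 0 ≤ I (a ^ 2 * ρ s) + I (b ^ 2 * ρ r) + I (c ^ 2 * ρ t)
      + 2 * I (a * R s r b) + 2 * I (b * R r t c) + 2 * I (a * R s t c)
  CE : ∀ r ∈ Ioc (0 : ℝ) 1, ∀ k, L2i m k → ∀ b ∈ (sob m).W, ∀ s ∈ Ioc (0 : ℝ) 1,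
    ∀ t ∈ Ioc (0 : ℝ) 1,
    IntervalIntegrable (fun τ => I ((sob m).Γ b (zc m p s₀ C₀ τ) * R τ r k)) volume s t ∧
    I (b * (R t r k - R s r k)) = ∫ τ in s..t, I ((sob m).Γ b (zc m p s₀ C₀ τ) * R τ r k)
  CEρ : ∀ b ∈ (sob m).W, ∀ s ∈ Ioc (0 : ℝ) 1, ∀ t ∈ Ioc (0 : ℝ) 1,
    IntervalIntegrable (fun τ => I ((sob m).Γ b (zc m p s₀ C₀ τ) * ρ τ)) volume s t ∧
    I (b * (ρ t - ρ s)) = ∫ τ in s..t, I ((sob m).Γ b (zc m p s₀ C₀ τ) * ρ τ)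

section

variable {M : Type u} [MetricSpace M] [SecondCountableTopology M] [MeasurableSpace M] [BorelSpace M]
  {m : Measure M}

/-- bound of the limit backward potentials -/
theorem φ_bound {N : ℝ} {p : M} {s₀ C₀ : ℝ} (hs : 0 < s₀) (hC0 : 0 ≤ C₀)
    {U : Ultrafilter ℕ} {φ u : ℕ → ℝ → M →ₘ[m] ℝ} {φ₀ : ℝ → M → ℝ}
    {L B R₀ c : ℝ} (hp : PotLim m N p s₀ C₀ U φ u φ₀ L B R₀ c) :
    ∃ B : ℝ, ∀ t ∈ Icc (0 : ℝ) 1, ∀ᵐ x ∂m, |cl m (φ₀ t) x| ≤ B := by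
  refine ⟨max B 0, fun t ht => ?_⟩
  have hLip : LipschitzWith (Real.toNNReal (max L 0)) (φ₀ t) := by
    refine lipschitz_of_abs_sub_le (le_max_right _ _) fun x y => ?_
    have := hp.lip t ht t ht x y
    rw [sub_self, abs_zero, zero_add] at this
    exact this.trans (mul_le_mul_of_nonneg_right (le_max_left _ _) dist_nonneg)
  filter_upwards [H183.cl_cont (m := m) hLip.continuous] with x hx
  rw [hx, abs_le]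
  have h1 := hp.lo t ht x
  have h2 := hp.le t ht x
  have h3 : zr p s₀ C₀ t x ≤ 0 := by
    unfold zr
    exact min_le_right _ _
  exact ⟨by linarith [le_max_left B 0], by linarith [le_max_right B 0]⟩

theorem lim_of {K N : ℝ} {P : ℝ → (M →ₘ[m] ℝ) → (M →ₘ[m] ℝ)} {p : M} {s₀ C₀ : ℝ}
    (hyp : CHyp M m K N P p s₀ C₀) {u : ℕ → ℝ → M →ₘ[m] ℝ}
    {φ : (M →ₘ[m] ℝ) → ℕ → ℝ → M →ₘ[m] ℝ} (hA : OutA m K N P p s₀ C₀ u φ)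
    {U : Ultrafilter ℕ} (hU : (U : Filter ℕ) ≤ atTop) {φ₀ : ℝ → M → ℝ} {L B R₀ c : ℝ}
    (hp : PotLim m N p s₀ C₀ U (φ 0) u φ₀ L B R₀ c)
    {R : ℝ → ℝ → (M →ₘ[m] ℝ) → (M →ₘ[m] ℝ)} (hR : RHalf P p s₀ C₀ U u φ (ρl U u φ) R) :
    LimOf P U u φ (ρl U u φ) R ∧ Lim m K N p s₀ C₀ (fun t => cl m (φ₀ t)) (ρl U u φ) R := by
  have h := c1pot hyp hA hU hp
  refine ⟨⟨fun t ht b hb => (h.ρ_lim t ht).lim b hb, hR.R_lim⟩, ?_⟩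
  exact
    { z_mem := h.z_mem
      z_grad := h.z_grad
      z_lap := h.z_lap
      unit := h.unit
      φ_mem := h.φ_mem
      φ_bd := φ_bound hyp.hs hyp.hC0.le hp
      φ_grad := h.φ_grad
      φ_lap := h.φ_lap
      φ_far := h.φ_far
      φ_le := h.φ_le
      ρ_one := h.ρ_one
      ρ_nonneg := h.ρ_nonneg
      ρ_le := h.ρ_le
      ρ_L2 := h.ρ_L2
      R_mem := hR.R_mem
      R_add := hR.R_add
      R_smul := hR.R_smul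
      R_nonneg := hR.R_nonneg
      R_le := hR.R_le
      R_symm := hR.R_symm
      R_diag := hR.R_diag
      R_mass := hR.R_mass
      R_sq := hR.R_sq
      R_gram := hR.R_gram
      ρ_supp := h.ρ_supp
      CE := hR.CE
      CEρ := hR.CEρ }

end

end Vale.Agent.P233.H372
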