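import Vale.Agent.P233.Gig.IfC
import Vale.Agent.P233.H183.Unit
import Vale.Agent.P233.H326.Dense
import Vale.Agent.P233.H415.ULimW
import Vale.Agent.P233.H790.Len

/-! Block C1 (helper372), first half: the limit potentials and the limit density. -/

set_option linter.all false

open MeasureTheory Filter Topology Set
open scoped ENNReal NNReal InnerProductSpace

universe u

namespace Vale.Agent.P233.H372

open Vale.Agent.P233.PA (en OutA PotLim)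
open Vale.Agent.P233.PC

section

variable {M : Type u} [MetricSpace M] [SecondCountableTopology M] [MeasurableSpace M] [BorelSpace M]
  {m : Measure M}

theorem en_pos (n : ℕ) : 0 < en n := by unfold PA.en; positivity

theorem en_le_one (n : ℕ) : en n ≤ 1 := by
  unfold PA.en
  exact inv_le_one_of_one_le₀ (by linarith [(Nat.cast_nonneg n : (0 : ℝ) ≤ n)])

theorem zr_lip' {p : M} {s₀ C₀ t : ℝ} (hs : 0 < s₀) (ht : 0 ≤ t) (hC : 0 ≤ C₀) :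
    LipschitzWith (Real.toNNReal (√(2 * C₀ / s₀))) (zr p s₀ C₀ t) := by
  refine lipschitz_of_abs_sub_le (Real.sqrt_nonneg _) fun x y => ?_
  refine (H790.zr_lip p (by linarith) hC x y).trans ?_
  refine mul_le_mul_of_nonneg_right (Real.sqrt_le_sqrt ?_) dist_nonneg
  exact div_le_div_of_nonneg_left (by positivity) hs (by linarith)

theorem zr_out {p : M} {s₀ C₀ t : ℝ} (hs : 0 < s₀) (ht : 0 ≤ t) {x : M}
    (hx : √(2 * C₀ * (t + s₀)) ≤ dist p x) : zr p s₀ C₀ t x = 0 :=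
  H790.zr_eq_zero p (by linarith) hx

theorem zc_mem_A (hfin : ∀ (x : M) (r : ℝ), m (Metric.ball x r) < ∞) {p : M} {s₀ C₀ t : ℝ}
    (hs : 0 < s₀) (ht : 0 ≤ t) (hC : 0 ≤ C₀) : zc m p s₀ C₀ t ∈ (sob m).A :=
  H183.cl_mem_A hfin (zr_lip' hs ht hC) (x₀ := p) (R := √(2 * C₀ * (t + s₀)))
    fun x hx => zr_out hs ht hx

theorem zc_Γ_le (hfin : ∀ (x : M) (r : ℝ), m (Metric.ball x r) < ∞) {p : M} {s₀ C₀ t : ℝ}
    (hs : 0 < s₀) (ht : 0 ≤ t) (hC : 0 ≤ C₀) :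
    ∀ᵐ x ∂m, (sob m).Γ (zc m p s₀ C₀ t) (zc m p s₀ C₀ t) x ≤ 2 * C₀ / s₀ := by
  filter_upwards [H183.Γ_cl_le hfin (zr_lip' (p := p) hs ht hC) (x₀ := p)
    (R := √(2 * C₀ * (t + s₀))) fun x hx => zr_out hs ht hx] with x hx
  rw [Real.coe_toNNReal _ (Real.sqrt_nonneg _), Real.sq_sqrt (by positivity)] at hx
  exact hx

theorem zc_ae {p : M} {s₀ C₀ t : ℝ} (hs : 0 < s₀) (ht : 0 ≤ t) (hC : 0 ≤ C₀) :
    ∀ᵐ x ∂m, zc m p s₀ C₀ t x = zr p s₀ C₀ t x :=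
  H183.cl_cont (zr_lip' hs ht hC).continuous

/-! ### the density -/

section density

variable {K N : ℝ} {P : ℝ → (M →ₘ[m] ℝ) → (M →ₘ[m] ℝ)} {p : M} {s₀ C₀ : ℝ}
  {u : ℕ → ℝ → M →ₘ[m] ℝ} {φ : (M →ₘ[m] ℝ) → ℕ → ℝ → M →ₘ[m] ℝ}

theorem ex_zero' : ex (0 : M →ₘ[m] ℝ) = 1 := by
  rw [eq_iff_ae]
  filter_upwards [AEEqFun.coeFn_comp Real.exp Real.continuous_exp (0 : M →ₘ[m] ℝ),
    zero_ae (M := M) (m := m), one_ae (M := M) (m := m)] with x h1 h2 h3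
  rw [ex, h1, h3, Function.comp_apply, h2, Real.exp_zero]

theorem ex_nonneg' (f : M →ₘ[m] ℝ) : 0 ≤ ex f := by
  rw [nonneg_iff_ae]
  filter_upwards [AEEqFun.coeFn_comp Real.exp Real.continuous_exp f] with x h1
  rw [ex, h1, Function.comp_apply]
  exact (Real.exp_pos _).le

/-- the limit density -/
noncomputable def ρl (U : Ultrafilter ℕ) (u : ℕ → ℝ → M →ₘ[m] ℝ)
    (φ : (M →ₘ[m] ℝ) → ℕ → ℝ → M →ₘ[m] ℝ) (t : ℝ) : M →ₘ[m] ℝ :=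
  1 + wlim U fun n => rn u φ 0 n t - 1

theorem rn_one {ε : ℝ} {a : M →ₘ[m] ℝ} {φ u : ℝ → M →ₘ[m] ℝ}
    (h : Fam (sob m) P ε a 0 φ u) : rh ε φ u 1 = 1 := by
  have h1 := h.fin
  rw [smul_zero, add_zero] at h1
  rw [rh, h1, sub_self, smul_zero, ex_zero']

theorem rn_nonneg (l : M →ₘ[m] ℝ) (n : ℕ) (t : ℝ) : 0 ≤ rn u φ l n t := ex_nonneg' _

/-- the density of a pair is `1` plus a bounded Sobolev function -/
theorem rh_mem (hC : IsGamma (sob m)) {ε a b : ℝ} {φ u : ℝ → M →ₘ[m] ℝ}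
    (hp : Pair (sob m) P ε a b φ u) {t : ℝ} (ht : t ∈ Icc a b) : rh ε φ u t - 1 ∈ (sob m).A := by
  have h1 := hC.test_A (hp.f_mem t ht).1
  have h2 := hC.test_A (hp.g_mem t ht).1
  have e : rh ε φ u t = ex (ε⁻¹ • φ t) * ex (-(ε⁻¹ • u t)) := by
    rw [rh, eq_iff_ae]
    filter_upwards [AEEqFun.coeFn_comp Real.exp Real.continuous_exp (ε⁻¹ • (φ t - u t)),
      AEEqFun.coeFn_comp Real.exp Real.continuous_exp (ε⁻¹ • φ t),
      AEEqFun.coeFn_comp Real.exp Real.continuous_exp (-(ε⁻¹ • u t)),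
      smul_ae (φ t - u t) ε⁻¹, sub_ae (φ t) (u t), smul_ae (φ t) ε⁻¹,
      neg_ae (ε⁻¹ • u t), smul_ae (u t) ε⁻¹,
      mul_ae (ex (ε⁻¹ • φ t)) (ex (-(ε⁻¹ • u t)))]
      with x a1 a2 a3 a4 a5 a6 a7 a8 a9
    rw [ex, a1, a9, ex, ex, a2, a3, Function.comp_apply, Function.comp_apply,
      Function.comp_apply, a4, a5, a6, a7, a8, ← Real.exp_add]
    congr 1
    ring
  have e2 : rh ε φ u t - 1 = (ex (ε⁻¹ • φ t) - 1) * (ex (-(ε⁻¹ • u t)) - 1)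
      + ((ex (ε⁻¹ • φ t) - 1) + (ex (-(ε⁻¹ • u t)) - 1)) := by
    rw [e]; ring
  rw [e2]
  exact hC.toIsDir.A_add (hC.toIsDir.mul_mem_A h1 h2) (hC.toIsDir.A_add h1 h2)

end density

/-! ### the statement -/

/-- The fields of `LimOf` and `Lim` about the potentials and the density, with some more facts. -/
structure C1Pot {m : Measure M} (K N : ℝ) (p : M) (s₀ C₀ : ℝ)
    (U : Ultrafilter ℕ) (u : ℕ → ℝ → M →ₘ[m] ℝ) (φ : (M →ₘ[m] ℝ) → ℕ → ℝ → M →ₘ[m] ℝ)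
    (ψ ρ : ℝ → M →ₘ[m] ℝ) : Prop where
  ρ_lim : ∀ t ∈ Ioc (0 : ℝ) 1, WConv (U : Filter ℕ) (fun n => rn u φ 0 n t - 1) (ρ t - 1)
  z_mem : ∀ t ∈ Icc (0 : ℝ) 1, zc m p s₀ C₀ t ∈ (sob m).A
  z_grad : ∃ L : ℝ, ∀ t ∈ Icc (0 : ℝ) 1, ∀ᵐ x ∂m,
    (sob m).Γ (zc m p s₀ C₀ t) (zc m p s₀ C₀ t) x ≤ L
  z_lap : ∀ s ∈ Ioo (0 : ℝ) 1, ∃ c : ℝ, ∀ t ∈ Icc s 1, LapLE (sob m) (zc m p s₀ C₀ t) c
  unit : ∀ᵐ x ∂m, dist p x < r1 s₀ C₀ → (sob m).Γ (dc m p s₀ C₀) (dc m p s₀ C₀) x = 1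
  φ_mem : ∀ t ∈ Icc (0 : ℝ) 1, ψ t ∈ (sob m).A
  φ_grad : ∃ L : ℝ, ∀ t ∈ Icc (0 : ℝ) 1, ∀ᵐ x ∂m, (sob m).Γ (ψ t) (ψ t) x ≤ L
  φ_lap : ∃ c : ℝ, ∀ t ∈ Ico (0 : ℝ) 1, LapGE (sob m) (ψ t) (-(N / (1 - t) + c))
  φ_lap' : ∀ s ∈ Ioo (0 : ℝ) 1, ∃ c : ℝ, ∀ t ∈ Icc 0 s, LapGE (sob m) (ψ t) c
  φ_one : ψ 1 = zc m p s₀ C₀ 1
  φ_le : ∀ t ∈ Icc (0 : ℝ) 1, ψ t ≤ zc m p s₀ C₀ t
  φ_time : ∃ L : ℝ, ∀ s ∈ Icc (0 : ℝ) 1, ∀ t ∈ Icc (0 : ℝ) 1, ∀ᵐ x ∂m, |ψ s x - ψ t x| ≤ L * |s - t|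
  φ_far : ∃ R₀ : ℝ, ∀ t ∈ Icc (0 : ℝ) 1, ∀ᵐ x ∂m, R₀ ≤ dist p x → ψ t x = 0
  ρ_one : ρ 1 = 1
  ρ_nonneg : ∀ t ∈ Ioc (0 : ℝ) 1, 0 ≤ ρ t
  ρ_le : ∀ t ∈ Ioc (0 : ℝ) 1, ∀ᵐ x ∂m, ρ t x ≤ cK K C₀ * t ^ (-N)
  ρ_L2 : ∀ s ∈ Ioc (0 : ℝ) 1, ∃ B : ℝ, ∀ t ∈ Icc s 1,
    MemLp (ρ t - 1 : M →ₘ[m] ℝ) 2 m ∧ I ((ρ t - 1) ^ 2) ≤ B
  ρ_supp : ∀ t ∈ Ioo (0 : ℝ) 1, ∀ᵐ x ∂m, ψ t x < zc m p s₀ C₀ t x → ρ t x = 0
  loc : ∀ t ∈ Icc (0 : ℝ) 1, ∀ h ∈ (sob m).W, ∀ᵐ x ∂m, ψ t x = zc m p s₀ C₀ t x →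
    (sob m).Γ (ψ t) h x = (sob m).Γ (zc m p s₀ C₀ t) h x

theorem c1_le {K ε C₀ t : ℝ} (hε : 0 ≤ ε) (hε1 : ε ≤ 1) (hC : 0 ≤ C₀) (ht : t ∈ Icc (0 : ℝ) 1) :
    PA.c1 K ε C₀ * (1 - t) ≤ (1 + |K|) * |K| * C₀ := by
  unfold PA.c1
  have h1 : 0 ≤ |K| := abs_nonneg K
  have h2 : (1 + ε * |K|) * |K| * C₀ ≤ (1 + |K|) * |K| * C₀ := by
    have : ε * |K| ≤ |K| := by nlinarith
    gcongr
  have h3 : 0 ≤ (1 + ε * |K|) * |K| * C₀ := by positivity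
  have h4 : 1 - t ≤ 1 := by linarith [ht.1]
  have h5 : 0 ≤ 1 - t := by linarith [ht.2]
  calc (1 + ε * |K|) * |K| * C₀ * (1 - t) ≤ (1 + ε * |K|) * |K| * C₀ * 1 :=
        mul_le_mul_of_nonneg_left h4 h3
    _ ≤ _ := by rw [mul_one]; exact h2

/-- the density bounds of level `n` with final density `1` -/
theorem lev_zero {K N : ℝ} {P : ℝ → (M →ₘ[m] ℝ) → (M →ₘ[m] ℝ)} {p : M} {s₀ C₀ : ℝ}
    (hyp : CHyp M m K N P p s₀ C₀) {u : ℕ → ℝ → M →ₘ[m] ℝ}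
    {φ : (M →ₘ[m] ℝ) → ℕ → ℝ → M →ₘ[m] ℝ} (hA : OutA m K N P p s₀ C₀ u φ) :
    ∃ D D', ∀ᶠ n in atTop, PA.LevF (sob m) K N (en n) C₀ 1 D D' 0 (φ 0 n) (u n) := by
  have hC := hyp.std.base.hC
  have h0 : (0 : M →ₘ[m] ℝ) ∈ (sob m).TestI := hC.testI_zero (hC.bei hyp.std.hN hyp.std.rcd.bochner)
  refine hA.levF 0 h0 1 le_rfl ?_
  filter_upwards [zero_ae (M := M) (m := m)] with x hx
  rw [hx, Real.log_one]

theorem c1pot {K N : ℝ} {P : ℝ → (M →ₘ[m] ℝ) → (M →ₘ[m] ℝ)} {p : M} {s₀ C₀ : ℝ}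
    (hyp : CHyp M m K N P p s₀ C₀) {u : ℕ → ℝ → M →ₘ[m] ℝ}
    {φ : (M →ₘ[m] ℝ) → ℕ → ℝ → M →ₘ[m] ℝ} (hA : OutA m K N P p s₀ C₀ u φ)
    {U : Ultrafilter ℕ} (hU : (U : Filter ℕ) ≤ atTop) {φ₀ : ℝ → M → ℝ} {L B R₀ c : ℝ}
    (hp : PotLim m N p s₀ C₀ U (φ 0) u φ₀ L B R₀ c) :
    C1Pot K N p s₀ C₀ U u φ (fun t => cl m (φ₀ t)) (ρl U u φ) := by
  have hbase := hyp.std.base
  have hC := hbase.hC
  have hD := hC.toIsDir
  have hfin := hyp.std.hfin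
  have hs := hyp.hs
  have hC0 := hyp.hC0
  have hN := hyp.std.hN
  have hBi := hC.bei hN hyp.std.rcd.bochner
  have h0 : (0 : M →ₘ[m] ℝ) ∈ (sob m).TestI := hC.testI_zero hBi
  have hFam : ∀ᶠ n in (U : Filter ℕ),
      Fam (sob m) P (en n) (cl m (zr p s₀ C₀ 0)) 0 (φ 0 n) (u n) :=
    (hA.fam.filter_mono hU).mono fun n hn => hn 0 h0
  obtain ⟨D, D', hLev⟩ := lev_zero hyp hA
  have hLevU : ∀ᶠ n in (U : Filter ℕ), PA.LevF (sob m) K N (en n) C₀ 1 D D' 0 (φ 0 n) (u n) :=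
    hLev.filter_mono hU
  have rnA : ∀ᶠ n in (U : Filter ℕ), ∀ t ∈ Icc (0 : ℝ) 1, rn u φ 0 n t - 1 ∈ (sob m).A := by
    filter_upwards [hFam] with n hn t ht using rh_mem hC hn.pair ht
  have hLip : ∀ t ∈ Icc (0 : ℝ) 1, LipschitzWith (Real.toNNReal (max L 0)) (φ₀ t) := by
    intro t ht
    refine lipschitz_of_abs_sub_le (le_max_right _ _) fun x y => ?_
    have := hp.lip t ht t ht x y
    rw [sub_self, abs_zero, zero_add] at this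
    exact this.trans (mul_le_mul_of_nonneg_right (le_max_left _ _) dist_nonneg)
  have φae : ∀ t ∈ Icc (0 : ℝ) 1, ∀ᵐ x ∂m, cl m (φ₀ t) x = φ₀ t x := fun t ht =>
    H183.cl_cont (hLip t ht).continuous
  have zae : ∀ t ∈ Icc (0 : ℝ) 1, ∀ᵐ x ∂m, zc m p s₀ C₀ t x = zr p s₀ C₀ t x := fun t ht =>
    zc_ae hs ht.1 hC0.le
  have rnB : ∀ s ∈ Ioc (0 : ℝ) 1, ∀ t ∈ Icc s 1, ∀ᶠ n in (U : Filter ℕ),
      MemLp (rn u φ 0 n t - 1 : M →ₘ[m] ℝ) 2 m ∧ I ((rn u φ 0 n t - 1) ^ 2) ≤ D' s := by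
    intro s hs' t ht
    filter_upwards [hLevU, rnA] with n h1 h2
    exact ⟨hC.memLp _ (h2 t ⟨hs'.1.le.trans ht.1, ht.2⟩).1, h1.rho2 s hs' t ht⟩
  have ρW : ∀ t ∈ Ioc (0 : ℝ) 1, WConv (U : Filter ℕ) (fun n => rn u φ 0 n t - 1)
      (ρl U u φ t - 1) := by
    intro t ht
    have h1 : BddL2 (U : Filter ℕ) fun n => rn u φ 0 n t - 1 :=
      ⟨D' t, rnB t ht t ⟨le_rfl, ht.2⟩⟩
    have := h1.wconv
    rwa [ρl, add_sub_cancel_left]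
  refine ⟨ρW, ?_, ?_, ?_, ?_, ?_, ?_, ?_, ?_, ?_, ?_, ?_, ?_, ?_, ?_, ?_, ?_, ?_, ?_⟩
  · exact fun t ht => zc_mem_A hfin hs ht.1 hC0.le
  · exact ⟨_, fun t ht => zc_Γ_le hfin hs ht.1 hC0.le⟩
  · intro s hs'
    refine ⟨N / s + PA.c1 K 0 C₀, fun t ht g hg g0 g1 => ?_⟩
    refine (hA.ulim.lap t ⟨hs'.1.trans_le ht.1, ht.2⟩ g hg g0 g1).trans ?_
    refine mul_le_mul_of_nonneg_right ?_ (I_nonneg g0)
    have := div_le_div_of_nonneg_left hN.le hs'.1 ht.1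
    linarith
  · have h1 := hA.ulim.hj 1 (right_mem_Icc.2 zero_le_one)
    have hr1 : r1 s₀ C₀ ^ 2 = 2 * C₀ * (1 + s₀) := Real.sq_sqrt (by positivity)
    have h2 := H183.unit_of_HJ (m := m) hD hfin (p := p) (s₀ := s₀) (C₀ := C₀) (t := 1)
      (R := r1 s₀ C₀) (by linarith) hC0.le hr1.le (by
      filter_upwards [h1] with x hx hx2
      refine hx.1 ?_
      unfold zr
      refine (min_le_left _ _).trans_lt ?_
      rw [sub_neg, div_lt_iff₀ (by positivity)]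
      linarith)
    have h3 : ∀ᵐ x ∂m, x ≠ p := by
      rw [ae_iff]
      simpa using hyp.atom
    filter_upwards [h2, h3] with x h2 h3 h4
    exact h2 h3 h4
  · exact fun t ht => H183.cl_mem_A hfin (hLip t ht) (x₀ := p) (R := R₀) (hp.far t ht)
  · exact ⟨_, fun t ht => H183.Γ_cl_le hfin (hLip t ht) (x₀ := p) (R := R₀) (hp.far t ht)⟩
  · refine ⟨c, fun t ht g hg g0 g1 => ?_⟩
    have := hp.lapφ t ht g hg g0 g1
    linarith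
  · intro s hs'
    refine ⟨-(N / (1 - s) + c), fun t ht g hg g0 g1 => ?_⟩
    have h1 := hp.lapφ t ⟨ht.1, ht.2.trans_lt hs'.2⟩ g hg g0 g1
    have h2 : N / (1 - t) ≤ N / (1 - s) :=
      div_le_div_of_nonneg_left hN.le (by linarith [hs'.2]) (by linarith [ht.2])
    have h3 := mul_le_mul_of_nonneg_right h2 (I_nonneg g0)
    linarith
  · show cl m (φ₀ 1) = cl m (zr p s₀ C₀ 1)
    congr 1
    exact funext hp.one
  · intro t ht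
    rw [le_iff_ae]
    filter_upwards [φae t ht, zae t ht] with x h1 h2
    rw [h1, h2]; exact hp.le t ht x
  · refine ⟨L, fun s hs t ht => ?_⟩
    filter_upwards [φae t ht, φae s hs] with x h1 h2
    have := hp.lip s hs t ht x x
    rw [h1, h2]
    simpa using this
  · refine ⟨R₀, fun t ht => ?_⟩
    filter_upwards [φae t ht] with x h1 h2
    rw [h1]; exact hp.far t ht x h2
  · have h1 := ρW 1 ⟨one_pos, le_rfl⟩
    have h2 : WConv (U : Filter ℕ) (fun n => rn u φ 0 n 1 - 1) 0 := by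
      refine (WConv.const (l := (U : Filter ℕ)) mem_zero).congr ?_
      filter_upwards [hFam] with n hn
      rw [rn, rn_one hn, sub_self]
    have h3 := h1.unique h2
    rwa [sub_eq_zero] at h3
  · intro t ht
    have h1 := (ρW t ht).ge_of_ge (H := -1) (Eventually.of_forall fun n => by
      have := rn_nonneg (u := u) (φ := φ) 0 n t
      rw [neg_le_sub_iff_le_add]
      simpa using this)
    rw [neg_le_sub_iff_le_add] at h1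
    simpa using h1
  · intro t ht
    have h1 := (ρW t ht).le_const (K := cK K C₀ * t ^ (-N) - 1) (by
      filter_upwards [hLevU] with n hn
      filter_upwards [hn.dens t ht, sub_ae (rn u φ 0 n t) 1, one_ae (M := M) (m := m)]
        with x h1 h2 h3
      rw [h2, h3, rn]
      rw [mul_one] at h1
      have h4 : Real.exp (PA.c1 K (en n) C₀ * (1 - t)) ≤ cK K C₀ := by
        unfold cK
        exact Real.exp_le_exp.2 (c1_le (en_pos n).le (en_le_one n) hC0.le ⟨ht.1.le, ht.2⟩)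
      have h5 : 0 ≤ t ^ (-N) := Real.rpow_nonneg ht.1.le _
      have h6 := mul_le_mul_of_nonneg_left h4 h5
      linarith)
    filter_upwards [h1, sub_ae (ρl U u φ t) 1, one_ae (M := M) (m := m)] with x h1 h2 h3
    rw [h2, h3] at h1
    linarith
  · intro s hs'
    refine ⟨D' s, fun t ht => ?_⟩
    have h2 := ρW t ⟨hs'.1.trans_le ht.1, ht.2⟩
    exact ⟨h2.mem, h2.I_sq_le (Eventually.frequently ((rnB s hs' t ht).mono fun n hn => hn.2))⟩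
  · intro t ht
    have ht' : t ∈ Ioc (0 : ℝ) 1 := ⟨ht.1, ht.2.le⟩
    have ht'' : t ∈ Icc (0 : ℝ) 1 := ⟨ht.1.le, ht.2.le⟩
    have h1 := hp.dead t ht (fun n => rn u φ 0 n t) (ρl U u φ t) 1 (fun n => by
      filter_upwards [nonneg_iff_ae.1 (rn_nonneg (u := u) (φ := φ) 0 n t)] with x hx
      rw [abs_of_nonneg hx, one_mul]
      exact le_rfl) (fun g g1 gt => by
      have g2 : MemLp g 2 m := by
        refine memLp_two_of_sq ?_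
        rw [sq]
        exact mem_mul_top gt g1
      have h2 := (ρW t ht').lim g g2
      have h3 := h2.add_const (I g)
      have e : ∀ r : M →ₘ[m] ℝ, MemLp (r - 1 : M →ₘ[m] ℝ) 2 m → I (g * (r - 1)) + I g = I (r * g) := by
        intro r hr
        rw [← I_add (mem_mul_22 g2 hr) g1]
        congr 1
        ring
      rw [e _ (ρW t ht').mem] at h3
      refine h3.congr' ?_
      filter_upwards [rnA] with n hn
      exact e _ (hC.memLp _ (hn t ht'').1))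
    filter_upwards [h1, φae t ht'', zae t ht''] with x a1 a2 a3 a4
    rw [a2, a3] at a4
    exact a1 a4
  · intro t ht h hh
    filter_upwards [hp.loc t ht h hh, φae t ht, zae t ht] with x a1 a2 a3 a4
    rw [a2, a3] at a4
    exact a1 a4

end

end Vale.Agent.P233.H372
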