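import Vale.Agent.P233.H372.C1b
import Vale.Agent.P233.H196.UST4

/-! Block C1 (helper372): conservation of mass and the continuity equation of `ρ`, from the
continuity equation of the two-time densities (limit level only). -/

set_option linter.all false

open MeasureTheory Filter Topology Set
open scoped ENNReal NNReal InnerProductSpace Interval

universe u

namespace Vale.Agent.P233.H372

open Vale.Agent.P233.PA (en OutA PotLim)
open Vale.Agent.P233.PC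

/-! ### cut-offs -/

section cut

variable {M : Type*} [MeasurableSpace M] {m : Measure M} {C : Calc m}

/-- the cut-offs of `IsGamma` -/
structure Cut (C : Calc m) (η : ℕ → M →ₘ[m] ℝ) : Prop where
  memA : ∀ j, η j ∈ C.A
  top : ∀ j, MemLp (C.Γ (η j) (η j)) ∞ m
  nonneg : ∀ j, 0 ≤ η j
  le : ∀ j, ∀ᵐ x ∂m, |η j x| ≤ 1
  grad : ∀ j : ℕ, ∀ᵐ x ∂m, C.Γ (η j) (η j) x ≤ ((j : ℝ) + 1)⁻¹
  mono : ∀ j, η j ≤ η (j + 1)
  lim : ∀ᵐ x ∂m, Tendsto (fun j => η j x) atTop (𝓝 1)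

theorem exists_Cut (hC : IsGamma C) : ∃ η, Cut C η := by
  have hD := hC.toIsDir
  obtain ⟨η, h1, hmono, h3⟩ := hC.cutoff
  have hη1 : ∀ k, ∀ᵐ x ∂m, |η k x| ≤ 1 := by
    intro k
    filter_upwards [nonneg_iff_ae.1 (h1 k).2.1, le_iff_ae.1 (h1 k).2.2.1,
      one_ae (M := M) (m := m)] with x b1 b2 b3
    rw [abs_of_nonneg b1]
    rwa [b3] at b2
  have hg : ∀ k : ℕ, ∀ᵐ x ∂m, C.Γ (η k) (η k) x ≤ ((k : ℝ) + 1)⁻¹ := by
    intro k
    filter_upwards [le_iff_ae.1 (h1 k).2.2.2, smul_ae (1 : M →ₘ[m] ℝ) ((k : ℝ) + 1)⁻¹,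
      one_ae (M := M) (m := m)] with x b1 b2 b3
    rw [b2, b3, mul_one] at b1
    exact b1
  refine ⟨η, fun k => ⟨(h1 k).1, mem_top_iff.2 ⟨1, hη1 k⟩⟩, fun k => mem_top_iff.2
    ⟨((k : ℝ) + 1)⁻¹, ?_⟩, fun k => (h1 k).2.1, hη1, hg, hmono, h3⟩
  filter_upwards [hg k, hD.Γ_nonneg_ae (h1 k).1] with x b1 b2
  rwa [abs_of_nonneg b2]

namespace Cut

variable {η : ℕ → M →ₘ[m] ℝ}

theorem mem2 (hC : IsDir C) (h : Cut C η) (j : ℕ) : MemLp (η j) 2 m := hC.memLp _ (h.memA j).1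

theorem mul_mem (hC : IsDir C) (h : Cut C η) {b : M →ₘ[m] ℝ} (hb : b ∈ C.W) (j : ℕ) :
    η j * b ∈ C.W ∧ MemLp (η j * b : M →ₘ[m] ℝ) 1 m :=
  ⟨hC.mul_mem_lip (h.memA j) (h.top j) hb, mem_mul_22 (h.mem2 hC j) (hC.memLp _ hb)⟩

/-- the energy density of `η b - b` -/
theorem Γ_le (hC : IsDir C) (h : Cut C η) {b : M →ₘ[m] ℝ} (hb : b ∈ C.W) (j : ℕ) :
    ∀ᵐ x ∂m, C.Γ (η j * b - b) (η j * b - b) x ≤
      2 * (1 - η j x) ^ 2 * C.Γ b b x + 2 * ((j : ℝ) + 1)⁻¹ * b x ^ 2 := by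
  have hηW := (h.memA j).1
  have hw0 := (h.mul_mem hC hb j).1
  have hw : η j * b - b ∈ C.W := hC.sub_mem hw0 hb
  have key : ∀ g ∈ C.W, C.Γ (η j * b - b) g = η j * C.Γ b g + b * C.Γ (η j) g - C.Γ b g := by
    intro g hg
    rw [hC.Γ_sub_left hw0 hb hg, hC.Γ_mul_left_lip (h.memA j) (h.top j) hb hg]
  have e1 := key _ hw
  have e2 := key b hb
  have e3 := key (η j) hηW
  rw [hC.symm _ hw b hb] at e2
  rw [hC.symm _ hw _ hηW] at e3
  rw [e1, e2, e3]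
  filter_upwards [sub_ae (η j * (η j * C.Γ b b + b * C.Γ (η j) b - C.Γ b b)
      + b * (η j * C.Γ b (η j) + b * C.Γ (η j) (η j) - C.Γ b (η j)))
      (η j * C.Γ b b + b * C.Γ (η j) b - C.Γ b b),
    add_ae (η j * (η j * C.Γ b b + b * C.Γ (η j) b - C.Γ b b))
      (b * (η j * C.Γ b (η j) + b * C.Γ (η j) (η j) - C.Γ b (η j))),
    mul_ae (η j) (η j * C.Γ b b + b * C.Γ (η j) b - C.Γ b b),
    mul_ae b (η j * C.Γ b (η j) + b * C.Γ (η j) (η j) - C.Γ b (η j)),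
    sub_ae (η j * C.Γ b b + b * C.Γ (η j) b) (C.Γ b b),
    add_ae (η j * C.Γ b b) (b * C.Γ (η j) b), mul_ae (η j) (C.Γ b b), mul_ae b (C.Γ (η j) b),
    sub_ae (η j * C.Γ b (η j) + b * C.Γ (η j) (η j)) (C.Γ b (η j)),
    add_ae (η j * C.Γ b (η j)) (b * C.Γ (η j) (η j)), mul_ae (η j) (C.Γ b (η j)),
    mul_ae b (C.Γ (η j) (η j)), hC.Γ_cs_ae hb hηW, hC.Γ_nonneg_ae hb, hC.Γ_nonneg_ae hηW,
    h.grad j, eq_iff_ae.1 (hC.symm _ hηW b hb)]
    with x a1 a2 a3 a4 a5 a6 a7 a8 a9 a10 a11 a12 a13 a14 a15 a16 a17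
  rw [a1, a2, a3, a4, a5, a6, a7, a8, a9, a10, a11, a12, a17]
  set e := η j x
  set B := b x
  set G := C.Γ b b x
  set D := C.Γ b (η j) x
  set H := C.Γ (η j) (η j) x
  have h1 : 2 * (1 - e) * B * -D ≤ (1 - e) ^ 2 * G + B ^ 2 * H := by
    have h2 : |(1 - e) * B * D| * 2 ≤ (1 - e) ^ 2 * G + B ^ 2 * H := by
      have h3 : 0 ≤ (1 - e) ^ 2 * G + B ^ 2 * H := by positivity
      have h4 : (|(1 - e) * B * D| * 2) ^ 2 ≤ ((1 - e) ^ 2 * G + B ^ 2 * H) ^ 2 := by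
        rw [mul_pow, sq_abs]
        have h5 : ((1 - e) * B * D) ^ 2 ≤ ((1 - e) * B) ^ 2 * (G * H) := by
          rw [mul_pow]
          exact mul_le_mul_of_nonneg_left a13 (sq_nonneg _)
        nlinarith [sq_nonneg ((1 - e) ^ 2 * G - B ^ 2 * H)]
      exact (le_abs_self _).trans (abs_le_of_sq_le_sq h4 h3)
    have h6 := neg_abs_le ((1 - e) * B * D)
    linarith
  have h7 : B ^ 2 * H ≤ B ^ 2 * ((j : ℝ) + 1)⁻¹ := mul_le_mul_of_nonneg_left a16 (sq_nonneg _)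
  nlinarith

/-- `η b → b` in `W` -/
theorem tendsto (hC : IsDir C) (h : Cut C η) {b : M →ₘ[m] ℝ} (hb : b ∈ C.W) :
    Tendsto (fun j => I ((η j * b - b) ^ 2)) atTop (𝓝 0) ∧
      Tendsto (fun j => I (C.Γ (η j * b - b) (η j * b - b))) atTop (𝓝 0) := by
  have hb2 := hC.memLp _ hb
  have hi : Integrable (fun x => b x ^ 2) m := (int_of_mem (mem_sq hb2)).congr (sq_ae b)
  constructor
  · have h1 : Tendsto (fun j => I ((η j * b - b) ^ 2)) atTop (𝓝 (I (0 : M →ₘ[m] ℝ))) := by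
      refine I_tendsto_of_dominated (G := fun x => 4 * b x ^ 2) (hi.const_mul 4) (fun j => ?_) ?_
      · filter_upwards [sq_ae (η j * b - b), sub_ae (η j * b) b, mul_ae (η j) b, h.le j]
          with x a1 a2 a3 a4
        rw [a1, a2, a3, abs_of_nonneg (sq_nonneg _)]
        have e : η j x * b x - b x = (η j x - 1) * b x := by ring
        rw [e, mul_pow]
        have h2 := abs_le.1 a4
        have h3 : (η j x - 1) ^ 2 ≤ 4 := by nlinarith
        exact mul_le_mul_of_nonneg_right h3 (sq_nonneg _)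
      · have hall : ∀ᵐ x ∂m, ∀ j, ((η j * b - b : M →ₘ[m] ℝ) ^ 2 : M →ₘ[m] ℝ) x
            = (η j x * b x - b x) ^ 2 := by
          rw [ae_all_iff]
          intro j
          filter_upwards [sq_ae (η j * b - b), sub_ae (η j * b) b, mul_ae (η j) b]
            with x a1 a2 a3
          rw [a1, a2, a3]
        filter_upwards [hall, h.lim, zero_ae (M := M) (m := m)] with x a1 a2 a3
        rw [a3]
        have h2 : Tendsto (fun j => (η j x * b x - b x) ^ 2) atTop (𝓝 ((1 * b x - b x) ^ 2)) :=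
          ((a2.mul_const _).sub_const _).pow 2
        rw [one_mul, sub_self, zero_pow two_ne_zero] at h2
        exact h2.congr fun j => (a1 j).symm
    rwa [I_zero] at h1
  · have h1 : Tendsto (fun j => I (C.Γ (η j * b - b) (η j * b - b))) atTop
        (𝓝 (I (0 : M →ₘ[m] ℝ))) := by
      refine I_tendsto_of_dominated (G := fun x => 8 * C.Γ b b x + 2 * b x ^ 2)
        (((int_of_mem (hC.mem1 b hb)).const_mul 8).add (hi.const_mul 2)) (fun j => ?_) ?_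
      · filter_upwards [h.Γ_le hC hb j, hC.Γ_nonneg_ae (hC.sub_mem (h.mul_mem hC hb j).1 hb), h.le j,
          hC.Γ_nonneg_ae hb] with x a1 a2 a3 a4
        rw [abs_of_nonneg a2]
        refine a1.trans ?_
        have h2 := abs_le.1 a3
        have h3 : (1 - η j x) ^ 2 ≤ 4 := by nlinarith
        have h4 : ((j : ℝ) + 1)⁻¹ ≤ 1 := inv_le_one_of_one_le₀ (by
          linarith [(Nat.cast_nonneg j : (0 : ℝ) ≤ j)])
        have h5 := mul_le_mul_of_nonneg_right h3 a4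
        have h6 := mul_le_mul_of_nonneg_right h4 (sq_nonneg (b x))
        nlinarith
      · filter_upwards [ae_all_iff.2 fun j => h.Γ_le hC hb j,
          ae_all_iff.2 fun j => hC.Γ_nonneg_ae (hC.sub_mem (h.mul_mem hC hb j).1 hb), h.lim,
          zero_ae (M := M) (m := m)] with x a1 a2 a3 a4
        rw [a4]
        have h2 : Tendsto (fun j : ℕ => 2 * (1 - η j x) ^ 2 * C.Γ b b x
            + 2 * ((j : ℝ) + 1)⁻¹ * b x ^ 2) atTop
            (𝓝 (2 * (1 - 1) ^ 2 * C.Γ b b x + 2 * 0 * b x ^ 2)) := by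
          have h3 : Tendsto (fun j : ℕ => ((j : ℝ) + 1)⁻¹) atTop (𝓝 0) := by
            simpa [one_div] using tendsto_one_div_add_atTop_nhds_zero_nat (𝕜 := ℝ)
          exact ((((a3.const_sub 1).pow 2).const_mul 2).mul_const _).add
            ((h3.const_mul 2).mul_const _)
        simp only [sub_self, mul_zero, ne_eq, OfNat.ofNat_ne_zero, not_false_eq_true, zero_pow,
          zero_mul, add_zero] at h2
        exact squeeze_zero a2 a1 h2
    rwa [I_zero] at h1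

end Cut

end cut

/-! ### the flux -/

section flux

variable {M : Type u} [MetricSpace M] [SecondCountableTopology M] [MeasurableSpace M] [BorelSpace M]
  {m : Measure M}

/-- constant of the flux -/
noncomputable def fA (m : Measure M) (p : M) (s₀ C₀ : ℝ) : ℝ :=
  √(2 * C₀ / s₀) * (m (Metric.ball p (√(2 * C₀ * (1 + s₀))))).toReal

theorem fA_nonneg (m : Measure M) (p : M) (s₀ C₀ : ℝ) : 0 ≤ fA m p s₀ C₀ := by
  unfold fA; positivity

theorem flux_le (hC : IsDir (sob m)) (hfin : ∀ (x : M) (r : ℝ), m (Metric.ball x r) < ∞)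
    {p : M} {s₀ C₀ : ℝ} (hs : 0 < s₀) (hC0 : 0 ≤ C₀) {t : ℝ} (ht : t ∈ Icc (0 : ℝ) 1)
    {h f : M →ₘ[m] ℝ} (hh : h ∈ (sob m).W) {δ : ℝ} (hδ0 : 0 ≤ δ)
    (hδ : ∀ᵐ x ∂m, (sob m).Γ h h x ≤ δ ^ 2) {c : ℝ} (hc : 0 ≤ c) (hf : ∀ᵐ x ∂m, |f x| ≤ c) :
    |I ((sob m).Γ h (zc m p s₀ C₀ t) * f)| ≤ δ * c * fA m p s₀ C₀ := by
  set z := zc m p s₀ C₀ t with hz
  have hzA := zc_mem_A (m := m) (p := p) hfin hs ht.1 hC0
  have hzW := hzA.1
  set R : ℝ := √(2 * C₀ * (1 + s₀)) with hR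
  have hb : MeasurableSet (Metric.ball p R) := Metric.isOpen_ball.measurableSet
  set q : ℝ := √(2 * C₀ / s₀) with hq
  have hq2 : q ^ 2 = 2 * C₀ / s₀ := Real.sq_sqrt (by positivity)
  have h3 : ∀ᵐ x ∂m, |((sob m).Γ h z * f : M →ₘ[m] ℝ) x| ≤
      (Metric.ball p R).indicator (fun _ => δ * q * c) x := by
    filter_upwards [hδ, zc_Γ_le (m := m) (p := p) hfin hs ht.1 hC0, hf, hC.Γ_cs_ae hh hzW,
      mul_ae ((sob m).Γ h z) f, H183.Γ_loc0 hC hzW hh 0, zc_ae (m := m) (p := p) hs ht.1 hC0,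
      eq_iff_ae.1 (hC.symm _ hh _ hzW), hC.Γ_nonneg_ae hh, hC.Γ_nonneg_ae hzW]
      with x a1 a2 a3 a4 a5 a6 a7 a8 a9 a10
    rw [a5]
    by_cases hx : x ∈ Metric.ball p R
    · rw [indicator_of_mem hx, abs_mul]
      have h4 : |(sob m).Γ h z x| ≤ δ * q := by
        refine abs_le_of_sq_le_sq ?_ (by positivity)
        rw [mul_pow, hq2]
        exact a4.trans (mul_le_mul a1 a2 a10 (sq_nonneg _))
      exact mul_le_mul h4 a3 (abs_nonneg _) (by positivity)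
    · rw [indicator_of_notMem hx]
      rw [Metric.mem_ball, not_lt, dist_comm] at hx
      have h5 : zr p s₀ C₀ t x = 0 := zr_out hs ht.1 (le_trans (Real.sqrt_le_sqrt (by
        have h2 : t + s₀ ≤ 1 + s₀ := by linarith [ht.2]
        exact mul_le_mul_of_nonneg_left h2 (by positivity))) hx)
      rw [a8, a6 (by rw [← hz] at a7; rw [a7]; exact h5), zero_mul, abs_zero]
  calc |I ((sob m).Γ h z * f)| ≤ ∫ x, |((sob m).Γ h z * f : M →ₘ[m] ℝ) x| ∂m :=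
        abs_integral_le_integral_abs
    _ ≤ ∫ x, (Metric.ball p R).indicator (fun _ => δ * q * c) x ∂m := by
        refine integral_mono_of_nonneg (Eventually.of_forall fun x => abs_nonneg _)
          ((integrable_indicator_iff hb).2 (integrableOn_const (hfin p R).ne)) h3
    _ = δ * c * fA m p s₀ C₀ := by
        rw [integral_indicator hb, setIntegral_const, smul_eq_mul, fA]
        change (m (Metric.ball p R)).toReal * (δ * q * c) = _
        ring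

/-- crude bound -/
theorem flux_le' (hC : IsDir (sob m)) {z h f : M →ₘ[m] ℝ} (hz : z ∈ (sob m).W)
    (hh : h ∈ (sob m).W) {c : ℝ} (hc : 0 ≤ c) (hf : ∀ᵐ x ∂m, |f x| ≤ c) :
    |I ((sob m).Γ h z * f)| ≤ c * (√(I ((sob m).Γ h h)) * √(I ((sob m).Γ z z))) := by
  have hi : Integrable (fun x => |(sob m).Γ h z x|) m := (int_of_mem (hC.Γ_mem1 hh hz)).abs
  calc |I ((sob m).Γ h z * f)| ≤ ∫ x, |((sob m).Γ h z * f : M →ₘ[m] ℝ) x| ∂m :=
        abs_integral_le_integral_abs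
    _ ≤ ∫ x, c * |(sob m).Γ h z x| ∂m := by
        refine integral_mono_of_nonneg (Eventually.of_forall fun x => abs_nonneg _)
          (hi.const_mul c) ?_
        filter_upwards [hf, mul_ae ((sob m).Γ h z) f] with x a1 a2
        rw [a2, abs_mul, mul_comm]
        exact mul_le_mul_of_nonneg_right a1 (abs_nonneg _)
    _ = c * ∫ x, |(sob m).Γ h z x| ∂m := integral_const_mul _ _
    _ ≤ _ := mul_le_mul_of_nonneg_left (hC.int_abs_Γ_le hh hz) hc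

end flux

/-! ### limits under the time integral -/

theorem ce_limit {F : ℕ → ℝ → ℝ} {G : ℝ → ℝ} {a : ℕ → ℝ} {A s t c : ℝ}
    (hF : ∀ j, IntervalIntegrable (F j) volume s t ∧ a j = ∫ τ in s..t, F j τ)
    (hb : ∀ j, ∀ τ ∈ Ι s t, |F j τ| ≤ c)
    (hlim : ∀ τ ∈ Ι s t, Tendsto (fun j => F j τ) atTop (𝓝 (G τ)))
    (ha : Tendsto a atTop (𝓝 A)) :
    IntervalIntegrable G volume s t ∧ A = ∫ τ in s..t, G τ := by
  have hmeas : ∀ j, AEStronglyMeasurable (F j) (volume.restrict (Ι s t)) := fun j =>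
    (intervalIntegrable_iff.1 (hF j).1).aestronglyMeasurable
  have hGm : AEStronglyMeasurable G (volume.restrict (Ι s t)) := by
    refine aestronglyMeasurable_of_tendsto_ae atTop hmeas ?_
    exact (ae_restrict_iff' measurableSet_uIoc).2 (Eventually.of_forall fun τ hτ => hlim τ hτ)
  have hci : IntervalIntegrable (fun _ : ℝ => c) volume s t := intervalIntegrable_const
  have h1 := intervalIntegral.tendsto_integral_filter_of_dominated_convergence (μ := volume)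
    (a := s) (b := t) (l := atTop) (F := F) (f := G) (fun _ => c)
    (Eventually.of_forall hmeas)
    (Eventually.of_forall fun j => Eventually.of_forall fun τ hτ => by
      rw [Real.norm_eq_abs]; exact hb j τ hτ) hci
    (Eventually.of_forall fun τ hτ => hlim τ hτ)
  refine ⟨?_, ?_⟩
  · refine hci.mono_fun' hGm ?_
    refine (ae_restrict_iff' measurableSet_uIoc).2 (Eventually.of_forall fun τ hτ => ?_)
    change ‖G τ‖ ≤ c
    rw [Real.norm_eq_abs]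
    exact le_of_tendsto ((continuous_abs.tendsto _).comp (hlim τ hτ))
      (Eventually.of_forall fun j => hb j τ hτ)
  · refine tendsto_nhds_unique ha (h1.congr fun j => ?_)
    exact ((hF j).2).symm

/-! ### conservation of mass -/

section mass

variable {M : Type u} [MetricSpace M] [SecondCountableTopology M] [MeasurableSpace M] [BorelSpace M]
  {m : Measure M}

/-- The fields of `Lim` about the two-time densities that do not follow from the others. -/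
structure C1R {m : Measure M} (p : M) (s₀ C₀ : ℝ) (ρ : ℝ → M →ₘ[m] ℝ)
    (R : ℝ → ℝ → (M →ₘ[m] ℝ) → (M →ₘ[m] ℝ)) : Prop where
  R_mem : ∀ t ∈ Ioc (0 : ℝ) 1, ∀ r ∈ Ioc (0 : ℝ) 1, ∀ k, L2i m k → L2i m (R t r k)
  R_add : ∀ t ∈ Ioc (0 : ℝ) 1, ∀ r ∈ Ioc (0 : ℝ) 1, ∀ k k', L2i m k → L2i m k' →
    R t r (k + k') = R t r k + R t r k'
  R_smul : ∀ t ∈ Ioc (0 : ℝ) 1, ∀ r ∈ Ioc (0 : ℝ) 1, ∀ (c : ℝ) k, L2i m k →
    R t r (c • k) = c • R t r k
  R_nonneg : ∀ t ∈ Ioc (0 : ℝ) 1, ∀ r ∈ Ioc (0 : ℝ) 1, ∀ k, L2i m k → 0 ≤ k → 0 ≤ R t r k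
  R_le : ∀ t ∈ Ioc (0 : ℝ) 1, ∀ r ∈ Ioc (0 : ℝ) 1, ∀ k, L2i m k → ∀ B : ℝ,
    (∀ᵐ x ∂m, |k x| ≤ B) → ∀ᵐ x ∂m, |R t r k x| ≤ B * ρ t x
  R_symm : ∀ t ∈ Ioc (0 : ℝ) 1, ∀ r ∈ Ioc (0 : ℝ) 1, ∀ k b, L2i m k → L2i m b →
    I (b * R t r k) = I (k * R r t b)
  R_diag : ∀ t ∈ Ioc (0 : ℝ) 1, ∀ k, L2i m k → R t t k = k * ρ t
  CE : ∀ r ∈ Ioc (0 : ℝ) 1, ∀ k, L2i m k → ∀ b ∈ (sob m).W, ∀ s ∈ Ioc (0 : ℝ) 1,
    ∀ t ∈ Ioc (0 : ℝ) 1,
    IntervalIntegrable (fun τ => I ((sob m).Γ b (zc m p s₀ C₀ τ) * R τ r k)) volume s t ∧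
    I (b * (R t r k - R s r k)) = ∫ τ in s..t, I ((sob m).Γ b (zc m p s₀ C₀ τ) * R τ r k)

/-- Hypotheses on the density. -/
structure RhoH {m : Measure M} (N : ℝ) (c₀ : ℝ) (ρ : ℝ → M →ₘ[m] ℝ) : Prop where
  nonneg : ∀ t ∈ Ioc (0 : ℝ) 1, 0 ≤ ρ t
  le : ∀ t ∈ Ioc (0 : ℝ) 1, ∀ᵐ x ∂m, ρ t x ≤ c₀ * t ^ (-N)

theorem RhoH.le_of {N c₀ : ℝ} {ρ : ℝ → M →ₘ[m] ℝ} (h : RhoH N c₀ ρ) (hN : 0 < N) (hc : 0 ≤ c₀)
    {σ τ : ℝ} (hσ : 0 < σ) (hτ : σ ≤ τ) (hτ1 : τ ≤ 1) : ∀ᵐ x ∂m, |ρ τ x| ≤ c₀ * σ ^ (-N) := by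
  have h0 : τ ∈ Ioc (0 : ℝ) 1 := ⟨hσ.trans_le hτ, hτ1⟩
  filter_upwards [h.le τ h0, nonneg_iff_ae.1 (h.nonneg τ h0)] with x h1 h2
  rw [abs_of_nonneg h2]
  refine h1.trans (mul_le_mul_of_nonneg_left ?_ hc)
  exact Real.rpow_le_rpow_of_nonpos hσ hτ (by linarith)

theorem RhoH.top {N c₀ : ℝ} {ρ : ℝ → M →ₘ[m] ℝ} (h : RhoH N c₀ ρ) {t : ℝ}
    (ht : t ∈ Ioc (0 : ℝ) 1) : MemLp (ρ t) ∞ m := by
  rw [mem_top_iff]
  refine ⟨c₀ * t ^ (-N), ?_⟩
  filter_upwards [h.le t ht, nonneg_iff_ae.1 (h.nonneg t ht)] with x h1 h2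
  rwa [abs_of_nonneg h2]

theorem uIoc_mem {r t τ : ℝ} (hr : r ∈ Ioc (0 : ℝ) 1) (ht : t ∈ Ioc (0 : ℝ) 1) (hτ : τ ∈ Ι r t) :
    min r t ≤ τ ∧ τ ≤ 1 := by
  rw [Set.uIoc, Set.mem_Ioc] at hτ
  exact ⟨hτ.1.le, hτ.2.trans (max_le hr.2 ht.2)⟩

/-- `I (η_j f) → I f` -/
theorem tendsto_I_cut {η : ℕ → M →ₘ[m] ℝ} (hη : Cut (sob m) η) {f : M →ₘ[m] ℝ}
    (hf : MemLp f 1 m) : Tendsto (fun j => I (η j * f)) atTop (𝓝 (I f)) := by
  refine I_tendsto_of_dominated (int_of_mem hf).abs (fun j => ?_) ?_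
  · filter_upwards [hη.le j, mul_ae (η j) f] with x h1 h2
    rw [h2, abs_mul]
    calc |η j x| * |f x| ≤ 1 * |f x| := mul_le_mul_of_nonneg_right h1 (abs_nonneg _)
      _ = |f x| := one_mul _
  · filter_upwards [hη.lim, ae_all_iff.2 fun j => mul_ae (η j) f] with x h1 h2
    have h3 : Tendsto (fun j => η j x * f x) atTop (𝓝 (1 * f x)) := h1.mul_const _
    rw [one_mul] at h3
    exact h3.congr fun j => (h2 j).symm

variable {K N : ℝ} {P : ℝ → (M →ₘ[m] ℝ) → (M →ₘ[m] ℝ)} {p : M} {s₀ C₀ : ℝ}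
  {ρ : ℝ → M →ₘ[m] ℝ} {R : ℝ → ℝ → (M →ₘ[m] ℝ) → (M →ₘ[m] ℝ)}

theorem mass_pos (hyp : CHyp M m K N P p s₀ C₀) {c₀ : ℝ} (hc₀ : 0 ≤ c₀) (hρ : RhoH N c₀ ρ)
    (hR : C1R p s₀ C₀ ρ R) {t r : ℝ} (ht : t ∈ Ioc (0 : ℝ) 1) (hr : r ∈ Ioc (0 : ℝ) 1)
    {k : M →ₘ[m] ℝ} (hk : L2i m k) (hk1 : MemLp k 1 m) (hk0 : 0 ≤ k) :
    MemLp (R t r k) 1 m ∧ I (R t r k) = I (k * ρ r) := by
  have hC := hyp.std.base.hC
  have hD := hC.toIsDir
  have hfin := hyp.std.hfin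
  obtain ⟨η, hη⟩ := exists_Cut hC
  obtain ⟨B', hB'⟩ := mem_top_iff.1 hk.2
  set B : ℝ := max B' 0 with hBdef
  have hB0 : 0 ≤ B := le_max_right _ _
  have hB : ∀ᵐ x ∂m, |k x| ≤ B := by
    filter_upwards [hB'] with x hx using hx.trans (le_max_left _ _)
  set σ : ℝ := min r t with hσ
  have hσ0 : 0 < σ := lt_min hr.1 ht.1
  set c : ℝ := B * (c₀ * σ ^ (-N)) with hc
  have hc0 : 0 ≤ c := by positivity
  have hRle : ∀ τ ∈ Ι r t, ∀ᵐ x ∂m, |R τ r k x| ≤ c := by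
    intro τ hτ
    obtain ⟨h1, h2⟩ := uIoc_mem hr ht hτ
    have hτ' : τ ∈ Ioc (0 : ℝ) 1 := ⟨hσ0.trans_le h1, h2⟩
    filter_upwards [hR.R_le τ hτ' r hr k hk B hB, hρ.le_of hyp.std.hN hc₀ hσ0 h1 h2] with x a1 a2
    exact a1.trans (mul_le_mul_of_nonneg_left ((le_abs_self _).trans a2) hB0)
  set f := R t r k with hf
  have hfm := hR.R_mem t ht r hr k hk
  have hf0 := hR.R_nonneg t ht r hr k hk hk0
  have hρr := hρ.top hr
  have hkρ : MemLp (k * ρ r : M →ₘ[m] ℝ) 1 m := mem_top_mul hk1 hρr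
  have hkρ2 : MemLp (k * ρ r : M →ₘ[m] ℝ) 2 m := mem_top_mul hk.1 hρr
  -- the flux through the cut-off
  have hflux : ∀ j : ℕ, |I (η j * f) - I (η j * (k * ρ r))| ≤
      √(((j : ℝ) + 1)⁻¹) * c * fA m p s₀ C₀ * |t - r| := by
    intro j
    obtain ⟨h1, h2⟩ := hR.CE r hr k hk (η j) (hη.memA j).1 r hr t ht
    rw [hR.R_diag r hr k hk, mul_sub, I_sub (mem_mul_22 (hη.mem2 hD j) hfm.1)
      (mem_mul_22 (hη.mem2 hD j) hkρ2)] at h2
    rw [h2, ← Real.norm_eq_abs]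
    refine intervalIntegral.norm_integral_le_of_norm_le_const fun τ hτ => ?_
    rw [Real.norm_eq_abs]
    obtain ⟨h3, h4⟩ := uIoc_mem hr ht hτ
    refine flux_le hD hfin hyp.hs hyp.hC0.le ⟨(hσ0.trans_le h3).le, h4⟩ (hη.memA j).1
      (Real.sqrt_nonneg _) ?_ hc0 (hRle τ hτ)
    filter_upwards [hη.grad j] with x hx
    rwa [Real.sq_sqrt (by positivity)]
  have hlim0 : Tendsto (fun j : ℕ => √(((j : ℝ) + 1)⁻¹) * c * fA m p s₀ C₀ * |t - r|) atTop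
      (𝓝 0) := by
    have h3 : Tendsto (fun j : ℕ => ((j : ℝ) + 1)⁻¹) atTop (𝓝 0) := by
      simpa [one_div] using tendsto_one_div_add_atTop_nhds_zero_nat (𝕜 := ℝ)
    have h4 := (((h3.sqrt).mul_const c).mul_const (fA m p s₀ C₀)).mul_const |t - r|
    simpa using h4
  have hlim1 : Tendsto (fun j => I (η j * f) - I (η j * (k * ρ r))) atTop (𝓝 0) :=
    squeeze_zero_norm (fun j => by rw [Real.norm_eq_abs]; exact hflux j) hlim0
  have hlim2 : Tendsto (fun j => I (η j * f)) atTop (𝓝 (I (k * ρ r))) := by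
    have := hlim1.add (tendsto_I_cut hη hkρ)
    simpa using this
  -- monotone convergence
  have hint : ∀ j, Integrable (η j * f : M →ₘ[m] ℝ) m := fun j =>
    int_of_mem (mem_mul_22 (hη.mem2 hD j) hfm.1)
  have hnn : ∀ j, 0 ≤ η j * f := fun j => mul_nonneg (hη.nonneg j) hf0
  have hmct : Tendsto (fun j => ∫⁻ x, ENNReal.ofReal ((η j * f : M →ₘ[m] ℝ) x) ∂m) atTop
      (𝓝 (∫⁻ x, ENNReal.ofReal (f x) ∂m)) := by
    refine lintegral_tendsto_of_tendsto_of_monotone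
      (fun j => (AEEqFun.aestronglyMeasurable _).aemeasurable.ennreal_ofReal) ?_ ?_
    · filter_upwards [ae_all_iff.2 fun j => mul_ae (η j) f, nonneg_iff_ae.1 hf0,
        ae_all_iff.2 fun j => le_iff_ae.1 (hη.mono j)] with x a1 a2 a3
      refine monotone_nat_of_le_succ fun j => ?_
      rw [a1, a1]
      exact ENNReal.ofReal_le_ofReal (mul_le_mul_of_nonneg_right (a3 j) a2)
    · filter_upwards [ae_all_iff.2 fun j => mul_ae (η j) f, hη.lim] with x a1 a2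
      have h3 : Tendsto (fun j => ENNReal.ofReal (η j x * f x)) atTop
          (𝓝 (ENNReal.ofReal (1 * f x))) :=
        (ENNReal.continuous_ofReal.tendsto _).comp (a2.mul_const _)
      rw [one_mul] at h3
      exact h3.congr fun j => by rw [a1]
  have heq : ∀ j, ∫⁻ x, ENNReal.ofReal ((η j * f : M →ₘ[m] ℝ) x) ∂m = ENNReal.ofReal (I (η j * f)) :=
    fun j => (ofReal_integral_eq_lintegral_ofReal (hint j) (nonneg_iff_ae.1 (hnn j))).symm
  have hval : ∫⁻ x, ENNReal.ofReal (f x) ∂m = ENNReal.ofReal (I (k * ρ r)) := by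
    refine tendsto_nhds_unique hmct ?_
    refine ((ENNReal.continuous_ofReal.tendsto _).comp hlim2).congr fun j => ?_
    exact (heq j).symm
  have hfi : Integrable f m := by
    refine ⟨f.aestronglyMeasurable, ?_⟩
    rw [hasFiniteIntegral_iff_ofReal (nonneg_iff_ae.1 hf0), hval]
    exact ENNReal.ofReal_lt_top
  refine ⟨memLp_one_iff_integrable.2 hfi, ?_⟩
  rw [I, integral_eq_lintegral_of_nonneg_ae (nonneg_iff_ae.1 hf0) f.aestronglyMeasurable, hval,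
    ENNReal.toReal_ofReal (I_nonneg (mul_nonneg hk0 (hρ.nonneg r hr)))]

/-- conservation of mass: `Lim.R_mass` -/
theorem mass (hyp : CHyp M m K N P p s₀ C₀) {c₀ : ℝ} (hc₀ : 0 ≤ c₀) (hρ : RhoH N c₀ ρ)
    (hR : C1R p s₀ C₀ ρ R) : ∀ t ∈ Ioc (0 : ℝ) 1, ∀ r ∈ Ioc (0 : ℝ) 1, ∀ k, L2i m k →
    MemLp k 1 m → MemLp (R t r k) 1 m ∧ I (R t r k) = I (k * ρ r) := by
  intro t ht r hr k hk hk1
  have hp : ∀ q : ℝ≥0∞, MemLp k q m → MemLp (ppart k) q m := fun q hq => mem_of_le hq (by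
    filter_upwards [ppart_ae k] with x hx
    rw [hx, abs_of_nonneg (le_max_right _ _)]
    exact max_le (le_abs_self _) (abs_nonneg _))
  have hn : ∀ q : ℝ≥0∞, MemLp k q m → MemLp (ppart (-k)) q m := fun q hq => mem_of_le hq (by
    filter_upwards [ppart_ae (-k), neg_ae k] with x hx h2
    rw [hx, h2, abs_of_nonneg (le_max_right _ _)]
    exact max_le (neg_le_abs _) (abs_nonneg _))
  have e : k = ppart k + (-1 : ℝ) • ppart (-k) := by
    rw [eq_iff_ae]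
    filter_upwards [ppart_ae k, ppart_ae (-k), neg_ae k, add_ae (ppart k) ((-1 : ℝ) • ppart (-k)),
      smul_ae (ppart (-k)) (-1)] with x a1 a2 a3 a4 a5
    rw [a4, a5, a1, a2, a3]
    rcases le_total (k x) 0 with h | h
    · rw [max_eq_right h, max_eq_left (by linarith)]; ring
    · rw [max_eq_left h, max_eq_right (by linarith)]; ring
  have L1 : L2i m (ppart k) := ⟨hp 2 hk.1, hp ∞ hk.2⟩
  have L2 : L2i m (ppart (-k)) := ⟨hn 2 hk.1, hn ∞ hk.2⟩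
  have L2' : L2i m ((-1 : ℝ) • ppart (-k)) := ⟨mem_smul _ L2.1, mem_smul _ L2.2⟩
  obtain ⟨a1, a2⟩ := mass_pos hyp hc₀ hρ hR ht hr L1 (hp 1 hk1) (ppart_nonneg _)
  obtain ⟨b1, b2⟩ := mass_pos hyp hc₀ hρ hR ht hr L2 (hn 1 hk1) (ppart_nonneg _)
  have e2 : R t r k = R t r (ppart k) + (-1 : ℝ) • R t r (ppart (-k)) := by
    conv_lhs => rw [e]
    rw [hR.R_add t ht r hr _ _ L1 L2', hR.R_smul t ht r hr _ _ L2]
  have e3 : k * ρ r = ppart k * ρ r + (-1 : ℝ) • (ppart (-k) * ρ r) := by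
    conv_lhs => rw [e]
    rw [add_mul, smul_mul_assoc]
  have hρr := hρ.top hr
  refine ⟨by rw [e2]; exact mem_add a1 (mem_smul _ b1), ?_⟩
  rw [e2, e3, I_add a1 (mem_smul _ b1), I_add (mem_top_mul (hp 1 hk1) hρr)
    (mem_smul _ (mem_top_mul (hn 1 hk1) hρr)), I_smul, I_smul, a2, b2]

end mass

end Vale.Agent.P233.H372
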