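import Vale.Agent.P233.H372.C1c

/-! Block C1 (helper372): the continuity equation of `ρ`, from the continuity equation of the
two-time densities and conservation of mass (limit level only). -/

set_option linter.all false

open MeasureTheory Filter Topology Set
open scoped ENNReal NNReal InnerProductSpace Interval

universe u

namespace Vale.Agent.P233.H372

open Vale.Agent.P233.PA (en OutA PotLim)
open Vale.Agent.P233.PC

section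

variable {M : Type u} [MetricSpace M] [SecondCountableTopology M] [MeasurableSpace M] [BorelSpace M]
  {m : Measure M}

variable {K N : ℝ} {P : ℝ → (M →ₘ[m] ℝ) → (M →ₘ[m] ℝ)} {p : M} {s₀ C₀ : ℝ}
  {ρ : ℝ → M →ₘ[m] ℝ} {R : ℝ → ℝ → (M →ₘ[m] ℝ) → (M →ₘ[m] ℝ)}

theorem Cut.L2i {C : Calc m} (hC : IsDir C) {η : ℕ → M →ₘ[m] ℝ} (h : Cut C η) (j : ℕ) :
    L2i m (η j) := ⟨h.mem2 hC j, mem_top_iff.2 ⟨1, h.le j⟩⟩

/-- `R t 1 η_j → ρ t`, weakly against integrable functions -/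
theorem R_cut_lim (hyp : CHyp M m K N P p s₀ C₀) {c₀ : ℝ} (hc₀ : 0 ≤ c₀) (hρ : RhoH N c₀ ρ)
    (hR : C1R p s₀ C₀ ρ R) {η : ℕ → M →ₘ[m] ℝ} (hη : Cut (sob m) η) {t : ℝ}
    (ht : t ∈ Ioc (0 : ℝ) 1) {h : M →ₘ[m] ℝ} (hh : MemLp h 1 m) :
    Tendsto (fun j => I (h * R t 1 (η j))) atTop (𝓝 (I (h * ρ t))) := by
  have hC := hyp.std.base.hC
  have hD := hC.toIsDir
  have h1 : (1 : ℝ) ∈ Ioc (0 : ℝ) 1 := ⟨one_pos, le_rfl⟩
  have hρt := hρ.top ht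
  have hb : ∀ j, ∀ᵐ x ∂m, |R t 1 (η j) x| ≤ ρ t x := by
    intro j
    filter_upwards [hR.R_le t ht 1 h1 (η j) (hη.L2i hD j) 1 (hη.le j)] with x hx
    rwa [one_mul] at hx
  have hk0 : ∀ j, 0 ≤ ρ t - R t 1 (η j) := by
    intro j
    rw [nonneg_iff_ae]
    filter_upwards [hb j, sub_ae (ρ t) (R t 1 (η j))] with x a1 a2
    rw [a2]
    linarith [(abs_le.1 a1).2]
  have hk1 : ∀ j, ∀ᵐ x ∂m, (ρ t - R t 1 (η j) : M →ₘ[m] ℝ) x ≤ c₀ * t ^ (-N) := by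
    intro j
    filter_upwards [hρ.le t ht, sub_ae (ρ t) (R t 1 (η j)),
      nonneg_iff_ae.1 (hR.R_nonneg t ht 1 h1 (η j) (hη.L2i hD j) (hη.nonneg j))] with x a1 a2 a3
    rw [a2]
    linarith
  have hR2 : ∀ j, MemLp (R t 1 (η j)) ∞ m := fun j => (hR.R_mem t ht 1 h1 _ (hη.L2i hD j)).2
  -- weights in `L¹ ∩ L² ∩ L^∞`
  have key : ∀ b : M →ₘ[m] ℝ, PC.L2i m b → MemLp b 1 m →
      Tendsto (fun j => I (b * (ρ t - R t 1 (η j)))) atTop (𝓝 0) := by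
    intro b hb2 hb1
    obtain ⟨a1, a2⟩ := mass hyp hc₀ hρ hR 1 h1 t ht b hb2 hb1
    have a3 := tendsto_I_cut hη a1
    have a4 : Tendsto (fun j => I (b * ρ t) - I (η j * R 1 t b)) atTop
        (𝓝 (I (b * ρ t) - I (R 1 t b))) := a3.const_sub _
    rw [a2, sub_self] at a4
    refine a4.congr fun j => ?_
    rw [mul_sub, I_sub (mem_top_mul hb1 hρt) (mem_top_mul hb1 (hR2 j)),
      hR.R_symm t ht 1 h1 (η j) b (hη.L2i hD j) hb2]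
  have h2 := UST.tendsto_I_weight (l := atTop) (k := fun j => ρ t - R t 1 (η j))
    (K := c₀ * t ^ (-N)) (Eventually.of_forall fun j => ⟨hk0 j, hk1 j⟩) (ζ := η) hη.le
    (fun j => hη.mem2 hD j) hη.lim (fun i => by
      have hi := hη.L2i hD i
      refine key (η i ^ 2) ⟨?_, ?_⟩ (mem_sq hi.1)
      · rw [sq]; exact mem_top_mul hi.1 hi.2
      · rw [sq]; exact mem_top_mul hi.2 hi.2) hh
  have h3 : Tendsto (fun j => I (h * ρ t) - I (h * (ρ t - R t 1 (η j)))) atTop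
      (𝓝 (I (h * ρ t) - 0)) := h2.const_sub _
  rw [sub_zero] at h3
  refine h3.congr fun j => ?_
  rw [mul_sub, I_sub (mem_top_mul hh hρt) (mem_top_mul hh (hR2 j))]
  ring

/-- the continuity equation of `ρ`: `Lim.CEρ` -/
theorem CE_rho (hyp : CHyp M m K N P p s₀ C₀) {c₀ : ℝ} (hc₀ : 0 ≤ c₀) (hρ : RhoH N c₀ ρ)
    (hR : C1R p s₀ C₀ ρ R)
    (hρ2 : ∀ t ∈ Ioc (0 : ℝ) 1, MemLp (ρ t - 1 : M →ₘ[m] ℝ) 2 m) :
    ∀ b ∈ (sob m).W, ∀ s ∈ Ioc (0 : ℝ) 1, ∀ t ∈ Ioc (0 : ℝ) 1,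
    IntervalIntegrable (fun τ => I ((sob m).Γ b (zc m p s₀ C₀ τ) * ρ τ)) volume s t ∧
    I (b * (ρ t - ρ s)) = ∫ τ in s..t, I ((sob m).Γ b (zc m p s₀ C₀ τ) * ρ τ) := by
  have hC := hyp.std.base.hC
  have hD := hC.toIsDir
  have hfin := hyp.std.hfin
  have h1 : (1 : ℝ) ∈ Ioc (0 : ℝ) 1 := ⟨one_pos, le_rfl⟩
  obtain ⟨η, hη⟩ := exists_Cut hC
  obtain ⟨E, hE⟩ := zc_energy (m := m) (p := p) hD hfin hyp.hs hyp.hC0.le
  intro b hb s hs t ht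
  set σ : ℝ := min s t with hσ
  have hσ0 : 0 < σ := lt_min hs.1 ht.1
  set c : ℝ := c₀ * σ ^ (-N) with hc
  have hc0 : 0 ≤ c := by positivity
  have hτm : ∀ τ ∈ Ι s t, τ ∈ Ioc (0 : ℝ) 1 := fun τ hτ => by
    obtain ⟨a1, a2⟩ := uIoc_mem hs ht hτ
    exact ⟨hσ0.trans_le a1, a2⟩
  have hzW : ∀ τ ∈ Ι s t, zc m p s₀ C₀ τ ∈ (sob m).W := fun τ hτ =>
    (zc_mem_A (m := m) (p := p) hfin hyp.hs (hτm τ hτ).1.le hyp.hC0.le).1
  have hρc : ∀ τ ∈ Ι s t, ∀ᵐ x ∂m, |ρ τ x| ≤ c := fun τ hτ => by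
    obtain ⟨a1, a2⟩ := uIoc_mem hs ht hτ
    exact hρ.le_of hyp.std.hN hc₀ hσ0 a1 a2
  have hRc : ∀ j, ∀ τ ∈ Ι s t, ∀ᵐ x ∂m, |R τ 1 (η j) x| ≤ c := fun j τ hτ => by
    filter_upwards [hR.R_le τ (hτm τ hτ) 1 h1 (η j) (hη.L2i hD j) 1 (hη.le j), hρc τ hτ]
      with x a1 a2
    rw [one_mul] at a1
    exact a1.trans ((le_abs_self _).trans a2)
  have hEz : ∀ τ ∈ Ι s t, √(I ((sob m).Γ (zc m p s₀ C₀ τ) (zc m p s₀ C₀ τ))) ≤ √E :=
    fun τ hτ => Real.sqrt_le_sqrt (hE τ ⟨(hτm τ hτ).1.le, (hτm τ hτ).2⟩)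
  -- integrable `b`
  have step1 : ∀ b ∈ (sob m).W, MemLp b 1 m →
      IntervalIntegrable (fun τ => I ((sob m).Γ b (zc m p s₀ C₀ τ) * ρ τ)) volume s t ∧
      I (b * (ρ t - ρ s)) = ∫ τ in s..t, I ((sob m).Γ b (zc m p s₀ C₀ τ) * ρ τ) := by
    intro b hb hb1
    refine ce_limit (F := fun j τ => I ((sob m).Γ b (zc m p s₀ C₀ τ) * R τ 1 (η j)))
      (a := fun j => I (b * (R t 1 (η j) - R s 1 (η j))))
      (c := c * (√(I ((sob m).Γ b b)) * √E))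
      (fun j => hR.CE 1 h1 (η j) (hη.L2i hD j) b hb s hs t ht) (fun j τ hτ => ?_)
      (fun τ hτ => ?_) ?_
    · refine (flux_le' hD (hzW τ hτ) hb hc0 (hRc j τ hτ)).trans ?_
      exact mul_le_mul_of_nonneg_left (mul_le_mul_of_nonneg_left (hEz τ hτ) (Real.sqrt_nonneg _)) hc0
    · exact R_cut_lim hyp hc₀ hρ hR hη (hτm τ hτ) (hD.Γ_mem1 hb (hzW τ hτ))
    · have a1 := R_cut_lim hyp hc₀ hρ hR hη ht hb1
      have a2 := R_cut_lim hyp hc₀ hρ hR hη hs hb1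
      have a3 := a1.sub a2
      have e1 : I (b * (ρ t - ρ s)) = I (b * ρ t) - I (b * ρ s) := by
        rw [mul_sub, I_sub (mem_top_mul hb1 (hρ.top ht)) (mem_top_mul hb1 (hρ.top hs))]
      rw [e1]
      refine a3.congr fun j => ?_
      rw [mul_sub, I_sub (mem_top_mul hb1 (hR.R_mem t ht 1 h1 _ (hη.L2i hD j)).2)
        (mem_top_mul hb1 (hR.R_mem s hs 1 h1 _ (hη.L2i hD j)).2)]
  -- all `b`
  obtain ⟨hl1, hl2⟩ := hη.tendsto hD hb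
  have hbW : ∀ j, η j * b ∈ (sob m).W := fun j => (hη.mul_mem hD hb j).1
  have hl3 : Tendsto (fun j => √(I ((sob m).Γ (η j * b - b) (η j * b - b)))) atTop (𝓝 0) := by
    simpa using hl2.sqrt
  obtain ⟨B, hB⟩ : ∃ B : ℝ, ∀ j, √(I ((sob m).Γ (η j * b - b) (η j * b - b))) ≤ B := by
    obtain ⟨B, hB⟩ := hl3.bddAbove_range
    exact ⟨B, fun j => hB ⟨j, rfl⟩⟩
  have hdiff : ∀ j, ∀ τ ∈ Ι s t, |I ((sob m).Γ (η j * b) (zc m p s₀ C₀ τ) * ρ τ)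
      - I ((sob m).Γ b (zc m p s₀ C₀ τ) * ρ τ)| ≤
      c * (√(I ((sob m).Γ (η j * b - b) (η j * b - b))) * √E) := by
    intro j τ hτ
    have hρτ := hρ.top (hτm τ hτ)
    have e : I ((sob m).Γ (η j * b) (zc m p s₀ C₀ τ) * ρ τ)
        - I ((sob m).Γ b (zc m p s₀ C₀ τ) * ρ τ)
        = I ((sob m).Γ (η j * b - b) (zc m p s₀ C₀ τ) * ρ τ) := by
      rw [hD.Γ_sub_left (hbW j) hb (hzW τ hτ), sub_mul,
        I_sub (mem_top_mul (hD.Γ_mem1 (hbW j) (hzW τ hτ)) hρτ)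
          (mem_top_mul (hD.Γ_mem1 hb (hzW τ hτ)) hρτ)]
    rw [e]
    refine (flux_le' hD (hzW τ hτ) (hD.sub_mem (hbW j) hb) hc0 (hρc τ hτ)).trans ?_
    exact mul_le_mul_of_nonneg_left (mul_le_mul_of_nonneg_left (hEz τ hτ) (Real.sqrt_nonneg _)) hc0
  refine ce_limit (F := fun j τ => I ((sob m).Γ (η j * b) (zc m p s₀ C₀ τ) * ρ τ))
    (a := fun j => I (η j * b * (ρ t - ρ s)))
    (c := c * (√(I ((sob m).Γ b b)) * √E) + c * (B * √E))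
    (fun j => step1 _ (hbW j) (hη.mul_mem hD hb j).2) (fun j τ hτ => ?_) (fun τ hτ => ?_) ?_
  · have a1 := hdiff j τ hτ
    have a2 : |I ((sob m).Γ b (zc m p s₀ C₀ τ) * ρ τ)| ≤ c * (√(I ((sob m).Γ b b)) * √E) := by
      refine (flux_le' hD (hzW τ hτ) hb hc0 (hρc τ hτ)).trans ?_
      exact mul_le_mul_of_nonneg_left (mul_le_mul_of_nonneg_left (hEz τ hτ) (Real.sqrt_nonneg _)) hc0
    have a3 : c * (√(I ((sob m).Γ (η j * b - b) (η j * b - b))) * √E) ≤ c * (B * √E) :=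
      mul_le_mul_of_nonneg_left (mul_le_mul_of_nonneg_right (hB j) (Real.sqrt_nonneg _)) hc0
    have a4 := abs_sub_abs_le_abs_sub (I ((sob m).Γ (η j * b) (zc m p s₀ C₀ τ) * ρ τ))
      (I ((sob m).Γ b (zc m p s₀ C₀ τ) * ρ τ))
    linarith
  · rw [tendsto_iff_norm_sub_tendsto_zero]
    have a1 : Tendsto (fun j => c * (√(I ((sob m).Γ (η j * b - b) (η j * b - b))) * √E)) atTop
        (𝓝 (c * (0 * √E))) := (hl3.mul_const _).const_mul _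
    rw [zero_mul, mul_zero] at a1
    refine squeeze_zero (fun j => norm_nonneg _) (fun j => ?_) a1
    rw [Real.norm_eq_abs]
    exact hdiff j τ hτ
  · have hr : MemLp (ρ t - ρ s : M →ₘ[m] ℝ) 2 m := by
      have e : ρ t - ρ s = (ρ t - 1) - (ρ s - 1) := by abel
      rw [e]
      exact mem_sub (hρ2 t ht) (hρ2 s hs)
    have hb2 := hD.memLp _ hb
    have hbj2 : ∀ j, MemLp (η j * b : M →ₘ[m] ℝ) 2 m := fun j => hD.memLp _ (hbW j)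
    have hl4 : Tendsto (fun j => √(I ((η j * b - b) ^ 2)) * √(I ((ρ t - ρ s) ^ 2))) atTop
        (𝓝 0) := by
      have a1 := (hl1.sqrt).mul_const (√(I ((ρ t - ρ s) ^ 2)))
      simpa using a1
    rw [tendsto_iff_norm_sub_tendsto_zero]
    refine squeeze_zero (fun j => norm_nonneg _) (fun j => ?_) hl4
    have e : I (η j * b * (ρ t - ρ s)) - I (b * (ρ t - ρ s)) = I ((η j * b - b) * (ρ t - ρ s)) := by
      rw [sub_mul, I_sub (mem_mul_22 (hbj2 j) hr) (mem_mul_22 hb2 hr)]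
    rw [Real.norm_eq_abs, e]
    refine abs_le_of_sq_le_sq ?_ (by positivity)
    rw [mul_pow, Real.sq_sqrt (I_sq_nonneg _), Real.sq_sqrt (I_sq_nonneg _)]
    exact I_cs (mem_sub (hbj2 j) hb2) hr

end

end Vale.Agent.P233.H372
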