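import Vale.Agent.P233.Gig.Defs

/-! Block A5t (helper372): time Lipschitz bounds, uniform in `ε`, for the entropic potentials. -/

set_option linter.all false

open MeasureTheory Filter Topology Set
open scoped ENNReal NNReal InnerProductSpace

universe u

namespace Vale.Agent.P233.H372

variable {M : Type u} [MeasurableSpace M] {m : Measure M} {C : Calc m} {K : ℝ}
  {P : ℝ → (M →ₘ[m] ℝ) → (M →ₘ[m] ℝ)}

/-! ### the exponential of a test function -/

theorem ex_ae (f : M →ₘ[m] ℝ) : ∀ᵐ x ∂m, ex f x = Real.exp (f x) := by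
  filter_upwards [AEEqFun.coeFn_comp Real.exp Real.continuous_exp f] with x hx
  rw [ex, hx, Function.comp_apply]

theorem ex_smul_sub_one_ae (c : ℝ) (v : M →ₘ[m] ℝ) :
    ∀ᵐ x ∂m, (ex (c • v) - 1 : M →ₘ[m] ℝ) x = Real.exp (c * v x) - 1 := by
  filter_upwards [ex_ae (c • v), sub_ae (ex (c • v)) 1, one_ae (M := M) (m := m),
    smul_ae v c] with x h1 h2 h3 h4
  rw [h2, h1, h3, h4]

/-- `exp (c v) - 1` for a test function `v` -/
theorem ex_testI (hC : IsGamma C) {κ : ℝ} (hB : C.BEi κ) (c : ℝ) {v : M →ₘ[m] ℝ}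
    (hv : v ∈ C.TestI) :
    ex (c • v) - 1 ∈ C.TestI ∧
      (∀ᵐ x ∂m, C.lap (ex (c • v) - 1) x =
        Real.exp (c * v x) * (c * C.lap v x + c ^ 2 * C.Γ v v x)) := by
  have hΦ : ContDiff ℝ 3 fun s : ℝ => Real.exp (c * s) - 1 :=
    (Real.contDiff_exp.comp (contDiff_const.mul contDiff_id)).sub contDiff_const
  have d1 : ∀ s : ℝ, HasDerivAt (fun s : ℝ => Real.exp (c * s) - 1) (c * Real.exp (c * s)) s := by
    intro s
    have h1 : HasDerivAt (fun s : ℝ => c * s) c s := by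
      simpa using (hasDerivAt_id s).const_mul c
    have h2 := (h1.exp).sub_const 1
    rwa [mul_comm] at h2
  have e1 : deriv (fun s : ℝ => Real.exp (c * s) - 1) = fun s => c * Real.exp (c * s) :=
    funext fun s => (d1 s).deriv
  have d2 : ∀ s : ℝ, HasDerivAt (fun s : ℝ => c * Real.exp (c * s)) (c ^ 2 * Real.exp (c * s)) s := by
    intro s
    have h1 : HasDerivAt (fun s : ℝ => c * s) c s := by
      simpa using (hasDerivAt_id s).const_mul c
    have h2 := (h1.exp).const_mul c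
    exact h2.congr_deriv (by ring)
  have e2 : deriv (deriv (fun s : ℝ => Real.exp (c * s) - 1)) =
      fun s => c ^ 2 * Real.exp (c * s) := by
    rw [e1]; exact funext fun s => (d2 s).deriv
  obtain ⟨g, gT, g1, g2, g3⟩ := hC.testI_comp hB hv _ hΦ (by simp)
  have hg : g = ex (c • v) - 1 := by
    rw [eq_iff_ae]
    filter_upwards [g1, ex_smul_sub_one_ae c v] with x h1 h2
    rw [h1, h2]
  rw [← hg]
  refine ⟨gT, ?_⟩
  rw [e2, e1] at g3
  filter_upwards [g3] with x h1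
  rw [h1]; ring

/-! ### domination by the semigroup -/

/-- `|P h| ≤ l (1 + P k)` if `|h| ≤ l (1 + k)` -/
theorem heat_dom (hP : Heat C K P) {k h : M →ₘ[m] ℝ} (hk : MemLp k 2 m) (hh : MemLp h 2 m)
    {l : ℝ} (hl : 0 ≤ l) (hd : ∀ᵐ x ∂m, |h x| ≤ l * (k x + 1)) {τ : ℝ} (hτ : 0 ≤ τ) :
    ∀ᵐ x ∂m, |P τ h x| ≤ l * (P τ k x + 1) := by
  have h1 : MemLp (h + (-l) • k : M →ₘ[m] ℝ) 2 m := mem_add hh (mem_smul _ hk)
  have h2 : MemLp ((-1 : ℝ) • h + (-l) • k : M →ₘ[m] ℝ) 2 m :=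
    mem_add (mem_smul _ hh) (mem_smul _ hk)
  have a1 := hP.le τ hτ _ h1 l hl (by
    filter_upwards [hd, add_ae h ((-l) • k), smul_ae k (-l)] with x b1 b2 b3
    rw [b2, b3]
    have := le_abs_self (h x)
    linarith)
  have a2 := hP.le τ hτ _ h2 l hl (by
    filter_upwards [hd, add_ae ((-1 : ℝ) • h) ((-l) • k), smul_ae k (-l), smul_ae h (-1)]
      with x b1 b2 b3 b4
    rw [b2, b3, b4]
    have := neg_abs_le (h x)
    linarith)
  rw [hP.add τ hτ _ _ hh (mem_smul _ hk), hP.smul τ hτ _ _ hk] at a1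
  rw [hP.add τ hτ _ _ (mem_smul _ hh) (mem_smul _ hk), hP.smul τ hτ _ _ hk,
    hP.smul τ hτ _ _ hh] at a2
  filter_upwards [a1, a2, add_ae (P τ h) ((-l) • P τ k), smul_ae (P τ k) (-l),
    add_ae ((-1 : ℝ) • P τ h) ((-l) • P τ k), smul_ae (P τ h) (-1)] with x b1 b2 b3 b4 b5 b6
  rw [b3, b4] at b1
  rw [b5, b4, b6] at b2
  rw [abs_le]
  constructor <;> linarith

/-- derivative of `I (w P_t k)` -/
theorem hasDeriv_I (hP : Heat C K P) {k h w : M →ₘ[m] ℝ} (hkh : C.IsLap k h)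
    (hk : MemLp k 2 m) (hw : MemLp w 2 m) {t : ℝ} (ht : 0 ≤ t) :
    HasDerivWithinAt (fun τ => I (w * P τ k)) (I (w * P t h)) (Ici 0) t := by
  rw [hasDerivWithinAt_iff_tendsto_slope]
  have hh := hkh.2.1
  have h1 := hP.derivD k h hkh t ht
  have hbound : ∀ᶠ s in 𝓝[Ici 0 \ {t}] t,
      |_root_.slope (fun τ => I (w * P τ k)) t s - I (w * P t h)| ≤
        √(I (w ^ 2)) * √(I (((s - t)⁻¹ • (P s k - P t k) - P t h) ^ 2)) := by
    filter_upwards [self_mem_nhdsWithin] with s hs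
    have hs0 : 0 ≤ s := hs.1
    have m1 := hP.mem s hs0 k hk
    have m2 := hP.mem t ht k hk
    have m3 := hP.mem t ht h hh
    have e1 : _root_.slope (fun τ => I (w * P τ k)) t s - I (w * P t h) =
        I (w * ((s - t)⁻¹ • (P s k - P t k) - P t h)) := by
      have e2 : w * ((s - t)⁻¹ • (P s k - P t k) - P t h) =
          (s - t)⁻¹ • (w * P s k - w * P t k) - w * P t h := by
        rw [mul_sub, mul_smul_comm, mul_sub]
      rw [e2, I_sub (mem_smul _ (mem_sub (mem_mul_22 hw m1) (mem_mul_22 hw m2)))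
        (mem_mul_22 hw m3), I_smul, I_sub (mem_mul_22 hw m1) (mem_mul_22 hw m2),
        slope_def_field]
      ring
    rw [e1]
    have m4 : MemLp ((s - t)⁻¹ • (P s k - P t k) - P t h : M →ₘ[m] ℝ) 2 m :=
      mem_sub (mem_smul _ (mem_sub m1 m2)) m3
    have h2 := I_cs hw m4
    rw [← Real.sqrt_mul (I_sq_nonneg _)]
    exact Real.abs_le_sqrt h2
  have h2 : Tendsto (fun s => √(I (w ^ 2)) *
      √(I (((s - t)⁻¹ • (P s k - P t k) - P t h) ^ 2))) (𝓝[Ici 0 \ {t}] t) (𝓝 0) := by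
    have h3 := (h1.sqrt).const_mul (√(I (w ^ 2)))
    rwa [Real.sqrt_zero, mul_zero] at h3
  exact tendsto_iff_norm_sub_tendsto_zero.2 (squeeze_zero' (Eventually.of_forall fun s =>
    norm_nonneg _) (hbound.mono fun s hs => by rwa [Real.norm_eq_abs]) h2)

/-- exponential bounds for the integrals -/
theorem I_gronwall (hP : Heat C K P) {k h w : M →ₘ[m] ℝ} (hkh : C.IsLap k h)
    (hk : MemLp k 2 m) (hw : MemLp w 2 m) (hw1 : MemLp w 1 m) (hw0 : 0 ≤ w)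
    {l : ℝ} (hl : 0 ≤ l) (hd : ∀ᵐ x ∂m, |h x| ≤ l * (k x + 1)) {s t : ℝ} (hs : 0 ≤ s)
    (hst : s ≤ t) :
    I (w * P t k) + I w ≤ Real.exp (l * (t - s)) * (I (w * P s k) + I w) ∧
      I (w * P s k) + I w ≤ Real.exp (l * (t - s)) * (I (w * P t k) + I w) := by
  have hh := hkh.2.1
  have ht : 0 ≤ t := hs.trans hst
  have hder : ∀ r, 0 ≤ r → HasDerivWithinAt (fun τ => I (w * P τ k) + I w) (I (w * P r h))
      (Ici 0) r := fun r hr => (hasDeriv_I hP hkh hk hw hr).add_const _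
  have hdom : ∀ r, 0 ≤ r → |I (w * P r h)| ≤ l * (I (w * P r k) + I w) := by
    intro r hr
    have m1 := hP.mem r hr k hk
    have m2 := hP.mem r hr h hh
    have m3 := mem_mul_22 hw m1
    have m4 := mem_mul_22 hw m2
    have h1 := heat_dom hP hk hh hl hd hr
    have e1 : l * (I (w * P r k) + I w) = I (l • (w * P r k + w)) := by
      rw [I_smul, I_add m3 hw1]
    have m5 : MemLp (l • (w * P r k + w) : M →ₘ[m] ℝ) 1 m := mem_smul _ (mem_add m3 hw1)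
    rw [e1, abs_le, neg_le, ← I_neg]
    constructor
    · refine I_mono (mem_neg m4) m5 ?_
      rw [le_iff_ae]
      filter_upwards [h1, neg_ae (w * P r h), mul_ae w (P r h), mul_ae w (P r k),
        add_ae (w * P r k) w, smul_ae (w * P r k + w) l, nonneg_iff_ae.1 hw0]
        with x b1 b2 b3 b4 b5 b6 b7
      rw [b2, b3, b6, b5, b4]
      have := neg_abs_le (P r h x)
      nlinarith
    · refine I_mono m4 m5 ?_
      rw [le_iff_ae]
      filter_upwards [h1, mul_ae w (P r h), mul_ae w (P r k),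
        add_ae (w * P r k) w, smul_ae (w * P r k + w) l, nonneg_iff_ae.1 hw0]
        with x b1 b3 b4 b5 b6 b7
      rw [b3, b6, b5, b4]
      have := le_abs_self (P r h x)
      nlinarith
  set y : ℝ → ℝ := fun τ => I (w * P τ k) + I w with hy
  have hyc : ContinuousOn y (Ici 0) := fun r hr => (hder r hr).continuousWithinAt
  have hint : interior (Ici (0 : ℝ)) ⊆ Ici 0 := interior_subset
  -- upper bound
  have u1 : ∀ r, 0 ≤ r → HasDerivWithinAt (fun τ => Real.exp (-(l * τ)) * y τ)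
      (Real.exp (-(l * r)) * (I (w * P r h) - l * y r)) (Ici 0) r := by
    intro r hr
    have h1 : HasDerivWithinAt (fun τ : ℝ => Real.exp (-(l * τ))) (Real.exp (-(l * r)) * -l)
        (Ici 0) r := by
      have : HasDerivAt (fun τ : ℝ => -(l * τ)) (-l) r := by
        simpa using (hasDerivAt_id r).const_mul (-l)
      exact this.exp.hasDerivWithinAt
    refine (h1.mul (hder r hr)).congr_deriv ?_
    ring
  have u2 : AntitoneOn (fun τ => Real.exp (-(l * τ)) * y τ) (Ici 0) := by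
    refine antitoneOn_of_hasDerivWithinAt_nonpos (convex_Ici 0)
      (fun r hr => (u1 r hr).continuousWithinAt) (fun r hr => (u1 r (hint hr)).mono hint)
      fun r hr => ?_
    have h1 := (le_abs_self _).trans (hdom r (hint hr))
    exact mul_nonpos_of_nonneg_of_nonpos (Real.exp_pos _).le (by simp only [hy]; linarith)
  have v1 : ∀ r, 0 ≤ r → HasDerivWithinAt (fun τ => Real.exp (l * τ) * y τ)
      (Real.exp (l * r) * (I (w * P r h) + l * y r)) (Ici 0) r := by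
    intro r hr
    have h1 : HasDerivWithinAt (fun τ : ℝ => Real.exp (l * τ)) (Real.exp (l * r) * l)
        (Ici 0) r := by
      have : HasDerivAt (fun τ : ℝ => l * τ) l r := by
        simpa using (hasDerivAt_id r).const_mul l
      exact this.exp.hasDerivWithinAt
    refine (h1.mul (hder r hr)).congr_deriv ?_
    ring
  have v2 : MonotoneOn (fun τ => Real.exp (l * τ) * y τ) (Ici 0) := by
    refine monotoneOn_of_hasDerivWithinAt_nonneg (convex_Ici 0)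
      (fun r hr => (v1 r hr).continuousWithinAt) (fun r hr => (v1 r (hint hr)).mono hint)
      fun r hr => ?_
    have h1 := (neg_abs_le (I (w * P r h)))
    have h2 := hdom r (hint hr)
    exact mul_nonneg (Real.exp_pos _).le (by simp only [hy]; linarith)
  have h3 := u2 (show s ∈ Ici (0 : ℝ) from hs) (show t ∈ Ici (0 : ℝ) from ht) hst
  have h4 := v2 (show s ∈ Ici (0 : ℝ) from hs) (show t ∈ Ici (0 : ℝ) from ht) hst
  simp only at h3 h4
  constructor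
  · have h5 := mul_le_mul_of_nonneg_left h3 (Real.exp_pos (l * t)).le
    rw [← mul_assoc, ← Real.exp_add, ← mul_assoc, ← Real.exp_add, add_neg_cancel, Real.exp_zero,
      one_mul] at h5
    refine h5.trans (le_of_eq ?_)
    congr 2
    ring
  · have h5 := mul_le_mul_of_nonneg_left h4 (Real.exp_pos (-(l * s))).le
    rw [← mul_assoc, ← Real.exp_add, ← mul_assoc, ← Real.exp_add, neg_add_cancel, Real.exp_zero,
      one_mul] at h5
    refine h5.trans (le_of_eq ?_)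
    congr 2
    ring

/-- pointwise inequality from the inequality of the integrals, up to a constant -/
theorem le_of_forall_I [SigmaFinite m] {f g : M →ₘ[m] ℝ} (hf : MemLp f 2 m) (hg : MemLp g 2 m)
    {a b : ℝ} (H : ∀ w : M →ₘ[m] ℝ, MemLp w 2 m → MemLp w 1 m → 0 ≤ w →
      I (w * f) + a * I w ≤ I (w * g) + b * I w) : ∀ᵐ x ∂m, f x + a ≤ g x + b := by
  have hS := ae_nonneg_of_forall_setIntegral_nonneg_of_sigmaFinite (μ := m)
    (f := fun x => g x + b - (f x + a)) ?_ ?_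
  · filter_upwards [hS] with x hx
    simpa using hx
  · intro s hs hms
    haveI : IsFiniteMeasure (m.restrict s) := ⟨by simpa using hms⟩
    have h1 : IntegrableOn f s m := (hf.restrict s).integrable (by norm_num)
    have h2 : IntegrableOn g s m := (hg.restrict s).integrable (by norm_num)
    exact (h2.add (integrable_const b)).sub (h1.add (integrable_const a))
  · intro s hs hms
    haveI : IsFiniteMeasure (m.restrict s) := ⟨by simpa using hms⟩
    have h1 : IntegrableOn f s m := (hf.restrict s).integrable (by norm_num)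
    have h2 : IntegrableOn g s m := (hg.restrict s).integrable (by norm_num)
    have hi : AEStronglyMeasurable (s.indicator fun _ : M => (1 : ℝ)) m :=
      aestronglyMeasurable_const.indicator hs
    set w : M →ₘ[m] ℝ := AEEqFun.mk _ hi with hw
    have hwe : ∀ᵐ x ∂m, w x = s.indicator (fun _ : M => (1 : ℝ)) x := AEEqFun.coeFn_mk _ hi
    have wp : ∀ p : ℝ≥0∞, MemLp w p m := fun p =>
      (memLp_indicator_const p hs (1 : ℝ) (Or.inr hms.ne)).ae_eq (hwe.mono fun x hx => hx.symm)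
    have w0 : 0 ≤ w := by
      rw [nonneg_iff_ae]
      filter_upwards [hwe] with x hx
      rw [hx]
      exact indicator_nonneg (fun _ _ => zero_le_one) x
    have key : ∀ f : M →ₘ[m] ℝ, I (w * f) = ∫ x in s, f x ∂m := by
      intro f
      rw [I, ← integral_indicator hs]
      refine integral_congr_ae ?_
      filter_upwards [hwe, mul_ae w f] with x h1 h2
      rw [h2, h1]
      by_cases hx : x ∈ s <;> simp [hx]
    have key1 : I w = ∫ x in s, (1 : ℝ) ∂m := by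
      rw [I, ← integral_indicator hs]
      exact integral_congr_ae hwe
    have h3 := H w (wp 2) (wp 1) w0
    rw [key f, key g, key1] at h3
    rw [integral_sub (f := fun x => g x + b) (g := fun x => f x + a) (h2.add (integrable_const b))
      (h1.add (integrable_const a)), integral_add h2 (integrable_const b),
      integral_add h1 (integrable_const a)]
    simp only [integral_const, smul_eq_mul] at h3 ⊢
    linarith

/-- exponential bounds for the semigroup -/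
theorem heat_gronwall [SigmaFinite m] (hP : Heat C K P) {k h : M →ₘ[m] ℝ} (hkh : C.IsLap k h)
    (hk : MemLp k 2 m) {l : ℝ} (hl : 0 ≤ l) (hd : ∀ᵐ x ∂m, |h x| ≤ l * (k x + 1)) {s t : ℝ}
    (hs : 0 ≤ s) (hst : s ≤ t) :
    (∀ᵐ x ∂m, P t k x + 1 ≤ Real.exp (l * (t - s)) * (P s k x + 1)) ∧
      ∀ᵐ x ∂m, P s k x + 1 ≤ Real.exp (l * (t - s)) * (P t k x + 1) := by
  have ht : 0 ≤ t := hs.trans hst
  have ms := hP.mem s hs k hk
  have mt := hP.mem t ht k hk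
  set e := Real.exp (l * (t - s)) with he
  constructor
  · have h1 := le_of_forall_I (f := P t k) (g := e • P s k) (a := 1) (b := e) mt
      (mem_smul _ ms) fun w w2 w1 w0 => by
        have h2 := (I_gronwall hP hkh hk w2 w1 w0 hl hd hs hst).1
        rw [mul_smul_comm, I_smul]
        linarith
    filter_upwards [h1, smul_ae (P s k) e] with x b1 b2
    rw [b2] at b1
    linarith
  · have h1 := le_of_forall_I (f := P s k) (g := e • P t k) (a := 1) (b := e) ms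
      (mem_smul _ mt) fun w w2 w1 w0 => by
        have h2 := (I_gronwall hP hkh hk w2 w1 w0 hl hd hs hst).2
        rw [mul_smul_comm, I_smul]
        linarith
    filter_upwards [h1, smul_ae (P t k) e] with x b1 b2
    rw [b2] at b1
    linarith

/-! ### the logarithm -/

theorem exp_le_exp_mul {a b d : ℝ} (h : Real.exp a - 1 + 1 ≤ Real.exp d * (Real.exp b - 1 + 1)) :
    a - b ≤ d := by
  rw [sub_add_cancel, sub_add_cancel, ← Real.exp_add, Real.exp_le_exp] at h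
  linarith

/-- The bound of `Δ g_0 / g_0` is propagated by the heat flow, and it bounds the time derivative
of the logarithm of the solution. -/
theorem log_bound [SigmaFinite m] (hC : IsGamma C) {κ : ℝ} (hB : C.BEi κ) (hP : Heat C K P)
    {c l : ℝ} {k v v' : M →ₘ[m] ℝ} (hk : k ∈ C.TestI) (hkl : ∀ᵐ x ∂m, |C.lap k x| ≤ l * (k x + 1))
    (hl : 0 ≤ l) (hv : v ∈ C.TestI) (hv' : v' ∈ C.TestI) {s t : ℝ} (hs : 0 ≤ s) (hst : s ≤ t)
    (es : ex (c • v) - 1 = P s k) (et : ex (c • v') - 1 = P t k) :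
    (∀ᵐ x ∂m, |c * C.lap v' x + c ^ 2 * C.Γ v' v' x| ≤ l) ∧
      ∀ᵐ x ∂m, |c * v' x - c * v x| ≤ l * (t - s) := by
  have ht : 0 ≤ t := hs.trans hst
  have hkL := hC.test_isLap hk.1
  have hk2 := hC.memLp _ hkL.1
  obtain ⟨g1, g2⟩ := heat_gronwall hP hkL hk2 hl hkl hs hst
  constructor
  · have h1 := heat_dom hP hk2 hkL.2.1 hl hkl ht
    have h2 := hP.lapP t ht k _ hkL
    rw [← et] at h2
    have h3 := hC.toIsDir.lap_eq h2
    obtain ⟨-, h4⟩ := ex_testI hC hB c hv'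
    rw [h3] at h4
    rw [← et] at h1
    filter_upwards [h1, h4, ex_smul_sub_one_ae c v'] with x b1 b2 b3
    rw [b2, b3, sub_add_cancel, abs_mul, abs_of_pos (Real.exp_pos _), mul_comm l] at b1
    exact le_of_mul_le_mul_left b1 (Real.exp_pos _)
  · rw [← es, ← et] at g1 g2
    filter_upwards [g1, g2, ex_smul_sub_one_ae c v, ex_smul_sub_one_ae c v'] with x b1 b2 b3 b4
    rw [b3, b4] at b1 b2
    have c1 := exp_le_exp_mul b1
    have c2 := exp_le_exp_mul b2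
    rw [abs_le]
    constructor <;> linarith

/-- the hypothesis of `log_bound` for an exponential -/
theorem lap_ex_bound (hC : IsGamma C) {κ : ℝ} (hB : C.BEi κ) {c l : ℝ} {v : M →ₘ[m] ℝ}
    (hv : v ∈ C.TestI) (h : ∀ᵐ x ∂m, |c * C.lap v x + c ^ 2 * C.Γ v v x| ≤ l) :
    ∀ᵐ x ∂m, |C.lap (ex (c • v) - 1) x| ≤ l * ((ex (c • v) - 1 : M →ₘ[m] ℝ) x + 1) := by
  obtain ⟨-, h4⟩ := ex_testI hC hB c hv
  filter_upwards [h, h4, ex_smul_sub_one_ae c v] with x b1 b2 b3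
  rw [b2, b3, sub_add_cancel, abs_mul, abs_of_pos (Real.exp_pos _), mul_comm l]
  exact mul_le_mul_of_nonneg_left b1 (Real.exp_pos _).le

/-! ### the block A5t -/

theorem abs_scale {ε A x : ℝ} (hε : 0 < ε) (h : |x| ≤ A) : |(ε ^ 2)⁻¹ * x| ≤ A / ε ^ 2 := by
  rw [abs_mul, abs_of_pos (by positivity : (0 : ℝ) < (ε ^ 2)⁻¹), div_eq_inv_mul]
  exact mul_le_mul_of_nonneg_left h (by positivity)

/-- (T1), (T2): forward potentials. -/
theorem Pair_u_lip [SigmaFinite m] (hC : IsGamma C) {κ : ℝ} (hB : C.BEi κ) (hP : Heat C K P)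
    {ε a b : ℝ} {φ u : ℝ → M →ₘ[m] ℝ} (h : Pair C P ε a b φ u) {A : ℝ} (hA : 0 ≤ A)
    (h0 : ∀ᵐ x ∂m, |C.Γ (u a) (u a) x - ε * C.lap (u a) x| ≤ A) :
    (∀ t ∈ Icc a b, ∀ᵐ x ∂m, |C.Γ (u t) (u t) x - ε * C.lap (u t) x| ≤ A) ∧
      ∀ s ∈ Icc a b, ∀ t ∈ Icc a b, ∀ᵐ x ∂m, |u t x - u s x| ≤ A / 2 * |t - s| := by
  have hε := h.hε
  set k : M →ₘ[m] ℝ := ex (-(ε⁻¹ • u a)) - 1 with hk
  have ec : ∀ v : M →ₘ[m] ℝ, -(ε⁻¹ • v) = (-ε⁻¹) • v := fun v => (neg_smul _ _).symm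
  have ha : a ∈ Icc a b := left_mem_Icc.2 h.hab.le
  have hkT : k ∈ C.TestI := h.g_mem a ha
  have hkl : ∀ᵐ x ∂m, |C.lap k x| ≤ A / ε ^ 2 * (k x + 1) := by
    rw [hk, ec]
    refine lap_ex_bound hC hB (h.u_mem a ha) ?_
    filter_upwards [h0] with x hx
    have e : -ε⁻¹ * C.lap (u a) x + (-ε⁻¹) ^ 2 * C.Γ (u a) (u a) x =
        (ε ^ 2)⁻¹ * (C.Γ (u a) (u a) x - ε * C.lap (u a) x) := by field_simp; ring
    rw [e]
    exact abs_scale hε hx
  have hl : 0 ≤ A / ε ^ 2 := by positivity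
  have main : ∀ s ∈ Icc a b, ∀ t ∈ Icc a b, s ≤ t →
      (∀ᵐ x ∂m, |C.Γ (u t) (u t) x - ε * C.lap (u t) x| ≤ A) ∧
        ∀ᵐ x ∂m, |u t x - u s x| ≤ A / 2 * (t - s) := by
    intro s hs t ht hst
    have es := h.g_eq s hs
    have et := h.g_eq t ht
    rw [← hk, ec] at es et
    have hs0 : 0 ≤ ε * (s - a) / 2 := by
      have := mul_nonneg hε.le (sub_nonneg.2 hs.1); linarith
    have hst0 : ε * (s - a) / 2 ≤ ε * (t - a) / 2 := by
      have := mul_le_mul_of_nonneg_left (sub_le_sub_right hst a) hε.le; linarith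
    obtain ⟨r1, r2⟩ := log_bound hC hB hP hkT hkl hl (h.u_mem s hs) (h.u_mem t ht) hs0 hst0 es et
    constructor
    · filter_upwards [r1] with x hx
      have e : -ε⁻¹ * C.lap (u t) x + (-ε⁻¹) ^ 2 * C.Γ (u t) (u t) x =
          (C.Γ (u t) (u t) x - ε * C.lap (u t) x) / ε ^ 2 := by field_simp; ring
      rw [e, abs_div, abs_of_pos (by positivity : (0 : ℝ) < ε ^ 2)] at hx
      exact (div_le_div_iff_of_pos_right (by positivity)).1 hx
    · filter_upwards [r2] with x hx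
      have e : -ε⁻¹ * u t x - -ε⁻¹ * u s x = -(u t x - u s x) / ε := by field_simp; ring
      have e2 : A / ε ^ 2 * (ε * (t - a) / 2 - ε * (s - a) / 2) = (A / 2 * (t - s)) / ε := by
        field_simp; ring
      rw [e, e2, abs_div, abs_neg, abs_of_pos hε] at hx
      exact (div_le_div_iff_of_pos_right hε).1 hx
  refine ⟨fun t ht => (main a ha t ht ht.1).1, fun s hs t ht => ?_⟩
  rcases le_total s t with hst | hst
  · rw [abs_of_nonneg (sub_nonneg.2 hst)]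
    exact (main s hs t ht hst).2
  · rw [abs_of_nonpos (sub_nonpos.2 hst)]
    filter_upwards [(main t ht s hs hst).2] with x hx
    rw [abs_sub_comm, neg_sub]
    exact hx

/-- (T3): backward potentials. -/
theorem Pair_φ_lip [SigmaFinite m] (hC : IsGamma C) {κ : ℝ} (hB : C.BEi κ) (hP : Heat C K P)
    {ε a b : ℝ} {φ u : ℝ → M →ₘ[m] ℝ} (h : Pair C P ε a b φ u) {A : ℝ} (hA : 0 ≤ A)
    (h0 : ∀ᵐ x ∂m, |C.Γ (φ b) (φ b) x + ε * C.lap (φ b) x| ≤ A) :
    (∀ t ∈ Icc a b, ∀ᵐ x ∂m, |C.Γ (φ t) (φ t) x + ε * C.lap (φ t) x| ≤ A) ∧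
      ∀ s ∈ Icc a b, ∀ t ∈ Icc a b, ∀ᵐ x ∂m, |φ t x - φ s x| ≤ A / 2 * |t - s| := by
  have hε := h.hε
  set k : M →ₘ[m] ℝ := ex (ε⁻¹ • φ b) - 1 with hk
  have hb : b ∈ Icc a b := right_mem_Icc.2 h.hab.le
  have hkT : k ∈ C.TestI := h.f_mem b hb
  have hkl : ∀ᵐ x ∂m, |C.lap k x| ≤ A / ε ^ 2 * (k x + 1) := by
    rw [hk]
    refine lap_ex_bound hC hB (h.φ_mem b hb) ?_
    filter_upwards [h0] with x hx
    have e : ε⁻¹ * C.lap (φ b) x + ε⁻¹ ^ 2 * C.Γ (φ b) (φ b) x =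
        (ε ^ 2)⁻¹ * (C.Γ (φ b) (φ b) x + ε * C.lap (φ b) x) := by field_simp; ring
    rw [e]
    exact abs_scale hε hx
  have hl : 0 ≤ A / ε ^ 2 := by positivity
  have main : ∀ s ∈ Icc a b, ∀ t ∈ Icc a b, s ≤ t →
      (∀ᵐ x ∂m, |C.Γ (φ s) (φ s) x + ε * C.lap (φ s) x| ≤ A) ∧
        ∀ᵐ x ∂m, |φ t x - φ s x| ≤ A / 2 * (t - s) := by
    intro s hs t ht hst
    have es := h.f_eq s hs
    have et := h.f_eq t ht
    rw [← hk] at es et
    have hs0 : 0 ≤ ε * (b - t) / 2 := by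
      have := mul_nonneg hε.le (sub_nonneg.2 ht.2); linarith
    have hst0 : ε * (b - t) / 2 ≤ ε * (b - s) / 2 := by
      have := mul_le_mul_of_nonneg_left (sub_le_sub_left hst b) hε.le; linarith
    obtain ⟨r1, r2⟩ := log_bound hC hB hP hkT hkl hl (h.φ_mem t ht) (h.φ_mem s hs) hs0 hst0 et es
    constructor
    · filter_upwards [r1] with x hx
      have e : ε⁻¹ * C.lap (φ s) x + ε⁻¹ ^ 2 * C.Γ (φ s) (φ s) x =
          (C.Γ (φ s) (φ s) x + ε * C.lap (φ s) x) / ε ^ 2 := by field_simp; ring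
      rw [e, abs_div, abs_of_pos (by positivity : (0 : ℝ) < ε ^ 2)] at hx
      exact (div_le_div_iff_of_pos_right (by positivity)).1 hx
    · filter_upwards [r2] with x hx
      have e : ε⁻¹ * φ s x - ε⁻¹ * φ t x = (φ s x - φ t x) / ε := by field_simp
      have e2 : A / ε ^ 2 * (ε * (b - s) / 2 - ε * (b - t) / 2) = (A / 2 * (t - s)) / ε := by
        field_simp; ring
      rw [e, e2, abs_div, abs_of_pos hε] at hx
      rw [abs_sub_comm]
      exact (div_le_div_iff_of_pos_right hε).1 hx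
  refine ⟨fun t ht => (main t ht b hb ht.2).1, fun s hs t ht => ?_⟩
  rcases le_total s t with hst | hst
  · rw [abs_of_nonneg (sub_nonneg.2 hst)]
    exact (main s hs t ht hst).2
  · rw [abs_of_nonpos (sub_nonpos.2 hst)]
    filter_upwards [(main t ht s hs hst).2] with x hx
    rw [abs_sub_comm, neg_sub]
    exact hx

/-! ### the datum -/

/-- bounds of `J_(ε²) a` and of `J_(ε²) (J_(ε²) a)` -/
theorem datum_bound [SigmaFinite m] (hC : IsGamma C) {K N : ℝ} (hN : 0 < N) (hB : C.BE K N)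
    {a : M →ₘ[m] ℝ} (ha : a ∈ C.A) {L : ℝ} (hL : 0 ≤ L) (haL : ∀ᵐ x ∂m, C.Γ a a x ≤ L ^ 2)
    {ε : ℝ} (hε : 0 < ε) (hεK : 8 * ε ^ 2 * |K| ≤ 1) :
    (C.J (ε ^ 2) a ∈ C.TestI ∧
      (∀ᵐ x ∂m, C.Γ (C.J (ε ^ 2) a) (C.J (ε ^ 2) a) x ≤ 2 * L ^ 2) ∧
      ∀ᵐ x ∂m, |ε * C.lap (C.J (ε ^ 2) a) x| ≤ 4 * L * √N) ∧
    (C.J (ε ^ 2) (C.J (ε ^ 2) a) ∈ C.TestI ∧
      (∀ᵐ x ∂m, C.Γ (C.J (ε ^ 2) (C.J (ε ^ 2) a)) (C.J (ε ^ 2) (C.J (ε ^ 2) a)) x ≤ 2 * L ^ 2) ∧
      ∀ᵐ x ∂m, |ε * C.lap (C.J (ε ^ 2) (C.J (ε ^ 2) a)) x| ≤ 4 * L * √N) := by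
  have hD := hC.toIsDir
  have hBi := hC.bei hN hB
  have hB' : C.BE (-|K|) N := hC.be_mono hN (neg_abs_le K) hB
  have hμ : 0 < ε ^ 2 := by positivity
  have hK1 : 3 / 4 ≤ 1 + 2 * ε ^ 2 * K := by
    have h1 : -|K| ≤ K := neg_abs_le K
    have h2 := mul_le_mul_of_nonneg_left h1 hμ.le
    linarith
  have hK0 : 0 < 1 + 2 * ε ^ 2 * K := by linarith
  have ha2 := hC.memLp _ ha.1
  have haΓ0 : ∀ᵐ x ∂m, 0 ≤ C.Γ a a x := hD.Γ_nonneg_ae ha.1
  have haabs : ∀ᵐ x ∂m, |C.Γ a a x| ≤ L ^ 2 := by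
    filter_upwards [haL, haΓ0] with x h1 h2
    rwa [abs_of_nonneg h2]
  have haT : MemLp (C.Γ a a) ∞ m := mem_top_iff.2 ⟨_, haabs⟩
  have T1 := hC.testI_J hBi hμ hK0 ha haT
  have A1 := hC.test_A T1.1
  have G1 := hC.J_grad_le hBi hμ hK0 ha (sq_nonneg L) haabs
  set b := C.J (ε ^ 2) a with hb
  have hd : ∀ᵐ x ∂m, |b x - a x| ≤ 4 * L * (√N * ε) := by
    filter_upwards [hC.J_sub_le (abs_nonneg K) hN hB' ha hL haL hμ hεK] with x hx
    refine hx.trans (le_of_eq ?_)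
    rw [Real.sqrt_mul hN.le, Real.sqrt_sq hε.le]
  have lapb : C.lap b = (ε ^ 2)⁻¹ • (b - a) := hD.lap_eq (hD.J_isLap hμ ha2)
  have hlb : ∀ᵐ x ∂m, |C.lap b x| ≤ 4 * L * √N / ε := by
    rw [lapb]
    filter_upwards [hd, smul_ae (b - a) (ε ^ 2)⁻¹, sub_ae b a] with x h1 h2 h3
    rw [h2, h3, abs_mul, abs_of_pos (inv_pos.2 hμ)]
    calc (ε ^ 2)⁻¹ * |b x - a x| ≤ (ε ^ 2)⁻¹ * (4 * L * (√N * ε)) :=
          mul_le_mul_of_nonneg_left h1 (by positivity)
      _ = 4 * L * √N / ε := by field_simp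
  have scale : ∀ y : ℝ, |y| ≤ 4 * L * √N / ε → |ε * y| ≤ 4 * L * √N := by
    intro y hy
    rw [abs_mul, abs_of_pos hε]
    calc ε * |y| ≤ ε * (4 * L * √N / ε) := mul_le_mul_of_nonneg_left hy hε.le
      _ = 4 * L * √N := by field_simp
  have q1 : L ^ 2 / (1 + 2 * ε ^ 2 * K) ≤ 4 / 3 * L ^ 2 := by
    rw [div_le_iff₀ hK0]
    have := mul_le_mul_of_nonneg_left hK1 (by positivity : (0 : ℝ) ≤ 4 / 3 * L ^ 2)
    linarith
  have bΓ0 : ∀ᵐ x ∂m, 0 ≤ C.Γ b b x := hD.Γ_nonneg_ae A1.1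
  have babs : ∀ᵐ x ∂m, |C.Γ b b x| ≤ 4 / 3 * L ^ 2 := by
    filter_upwards [G1, bΓ0] with x h1 h2
    rw [abs_of_nonneg h2]; exact h1.trans q1
  have G2 := hC.J_grad_le hBi hμ hK0 A1 (by positivity : (0 : ℝ) ≤ 4 / 3 * L ^ 2) babs
  have T2 := hC.testI_J hBi hμ hK0 A1 (mem_top_iff.2 ⟨_, babs⟩)
  have q2 : 4 / 3 * L ^ 2 / (1 + 2 * ε ^ 2 * K) ≤ 2 * L ^ 2 := by
    rw [div_le_iff₀ hK0]
    have := mul_le_mul_of_nonneg_left hK1 (by positivity : (0 : ℝ) ≤ 2 * L ^ 2)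
    nlinarith [sq_nonneg L]
  refine ⟨⟨T1, ?_, ?_⟩, ⟨T2, ?_, ?_⟩⟩
  · filter_upwards [G1] with x h1
    nlinarith [sq_nonneg L, h1.trans q1]
  · filter_upwards [hlb] with x h1 using scale _ h1
  · filter_upwards [G2] with x h1 using h1.trans q2
  · rw [hC.lap_J' hμ T1.1]
    filter_upwards [hD.J_bdd hμ (hC.test_isLap T1.1).2.1 hlb] with x h1 using scale _ h1

/-- constant of block A5t -/
noncomputable def cA (N L : ℝ) : ℝ := 2 * L ^ 2 + 4 * L * √N

theorem cA_nonneg {N L : ℝ} (hL : 0 ≤ L) : 0 ≤ cA N L := by unfold cA; positivity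

/-- **Block A5t**, for the flow of the library: the potential is Lipschitz in time and
`Γ(u_t,u_t) - ε Δu_t` is bounded, uniformly in `ε`. -/
theorem Fam_u_lip [SigmaFinite m] (hC : IsGamma C) {K' N : ℝ} (hN : 0 < N) (hB : C.BE K' N)
    (hP : Heat C K P) {ε : ℝ} {a l : M →ₘ[m] ℝ} {φ u : ℝ → M →ₘ[m] ℝ} (h : Fam C P ε a l φ u)
    (ha : a ∈ C.A) {L : ℝ} (hL : 0 ≤ L) (haL : ∀ᵐ x ∂m, C.Γ a a x ≤ L ^ 2)
    (hεK : 8 * ε ^ 2 * |K'| ≤ 1) :
    (∀ t ∈ Icc (0 : ℝ) 1, ∀ᵐ x ∂m, |C.Γ (u t) (u t) x - ε * C.lap (u t) x| ≤ cA N L) ∧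
      ∀ s ∈ Icc (0 : ℝ) 1, ∀ t ∈ Icc (0 : ℝ) 1,
        ∀ᵐ x ∂m, |u t x - u s x| ≤ cA N L / 2 * |t - s| := by
  have hε := h.pair.hε
  obtain ⟨-, T, G, Λ⟩ := datum_bound hC hN hB ha hL haL hε hεK
  refine Pair_u_lip hC (hC.bei hN hB) hP h.pair (cA_nonneg hL) ?_
  rw [h.init]
  have hD := hC.toIsDir
  filter_upwards [G, Λ, hD.Γ_nonneg_ae (hC.test_A T.1).1] with x h1 h2 h3
  have h4 := abs_le.1 h2
  rw [cA, abs_le]
  constructor <;> linarith

/-- The time Lipschitz bound of `φ`: `B` bounds `Γ(u_1,u_1)`, `B'` bounds `Γ(l,l)`, `B''` bounds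
`|Δ l|`. -/
theorem Fam_φ_lip [SigmaFinite m] (hC : IsGamma C) {K' N : ℝ} (hN : 0 < N) (hB : C.BE K' N)
    (hP : Heat C K P) {ε : ℝ} {a l : M →ₘ[m] ℝ} {φ u : ℝ → M →ₘ[m] ℝ} (h : Fam C P ε a l φ u)
    (ha : a ∈ C.A) {L : ℝ} (hL : 0 ≤ L) (haL : ∀ᵐ x ∂m, C.Γ a a x ≤ L ^ 2)
    (hεK : 8 * ε ^ 2 * |K'| ≤ 1) (hε1 : ε ≤ 1) (hl : l ∈ C.TestI) {B B' B'' : ℝ} (hB0 : 0 ≤ B)
    (hB0' : 0 ≤ B') (hB0'' : 0 ≤ B'') (hu1 : ∀ᵐ x ∂m, C.Γ (u 1) (u 1) x ≤ B)
    (hl1 : ∀ᵐ x ∂m, C.Γ l l x ≤ B') (hl2 : ∀ᵐ x ∂m, |C.lap l x| ≤ B'') :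
    (∀ t ∈ Icc (0 : ℝ) 1, ∀ᵐ x ∂m, |C.Γ (φ t) (φ t) x + ε * C.lap (φ t) x| ≤
        cA N L + 3 * B + 2 * B' + B'') ∧
      ∀ s ∈ Icc (0 : ℝ) 1, ∀ t ∈ Icc (0 : ℝ) 1,
        ∀ᵐ x ∂m, |φ t x - φ s x| ≤ (cA N L + 3 * B + 2 * B' + B'') / 2 * |t - s| := by
  have hε := h.pair.hε
  have hD := hC.toIsDir
  have hBi := hC.bei hN hB
  have hc := cA_nonneg (N := N) hL
  refine Pair_φ_lip hC hBi hP h.pair (by positivity) ?_
  obtain ⟨h1, -⟩ := Fam_u_lip hC hN hB hP h ha hL haL hεK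
  have h2 := h1 1 (right_mem_Icc.2 zero_le_one)
  have uT := h.pair.u_mem 1 (right_mem_Icc.2 zero_le_one)
  have uW := (hC.test_A uT.1).1
  have lW := (hC.test_A hl.1).1
  have elW := hD.smul_mem ε _ lW
  have e1 : C.Γ (u 1 + ε • l) (u 1 + ε • l) =
      C.Γ (u 1) (u 1) + (2 * ε) • C.Γ (u 1) l + ε ^ 2 • C.Γ l l := by
    rw [hD.Γ_expand ε uW lW]
  have e2 : C.lap (u 1 + ε • l) = C.lap (u 1) + ε • C.lap l := by
    rw [hC.lap_add hBi uT.1 (hC.test_smul hBi ε hl.1), hC.lap_smul hBi ε hl.1]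
  rw [h.fin, e1, e2]
  filter_upwards [h2, hu1, hl1, hl2, hD.Γ_cs_ae uW lW, hD.Γ_nonneg_ae uW, hD.Γ_nonneg_ae lW,
    add_ae (C.Γ (u 1) (u 1) + (2 * ε) • C.Γ (u 1) l) (ε ^ 2 • C.Γ l l),
    add_ae (C.Γ (u 1) (u 1)) ((2 * ε) • C.Γ (u 1) l), smul_ae (C.Γ (u 1) l) (2 * ε),
    smul_ae (C.Γ l l) (ε ^ 2), add_ae (C.lap (u 1)) (ε • C.lap l), smul_ae (C.lap l) ε]
    with x b1 b2 b3 b4 b5 b6 b7 c1 c2 c3 c4 c5 c6
  rw [c1, c2, c3, c4, c5, c6]
  set G := C.Γ (u 1) (u 1) x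
  set D := C.Γ (u 1) l x
  set H := C.Γ l l x
  set p := C.lap (u 1) x
  set q := C.lap l x
  have hD2 : |2 * ε * D| ≤ G + ε ^ 2 * H := by
    refine abs_le_of_sq_le_sq ?_ (by positivity)
    have h3 : (2 * ε * D) ^ 2 ≤ 4 * ε ^ 2 * (G * H) := by
      have := mul_le_mul_of_nonneg_left b5 (by positivity : (0 : ℝ) ≤ 4 * ε ^ 2)
      linarith
    have h4 : 0 ≤ (G - ε ^ 2 * H) ^ 2 := sq_nonneg _
    nlinarith
  have hε2 : ε ^ 2 ≤ 1 := pow_le_one₀ hε.le hε1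
  have r1 : ε ^ 2 * H ≤ B' := by
    calc ε ^ 2 * H ≤ 1 * H := mul_le_mul_of_nonneg_right hε2 b7
      _ ≤ B' := by rw [one_mul]; exact b3
  have r1' : 0 ≤ ε ^ 2 * H := by positivity
  have r2 : |ε ^ 2 * q| ≤ B'' := by
    rw [abs_mul, abs_of_nonneg (sq_nonneg ε)]
    calc ε ^ 2 * |q| ≤ 1 * |q| := mul_le_mul_of_nonneg_right hε2 (abs_nonneg _)
      _ ≤ B'' := by rw [one_mul]; exact b4
  have r3 := abs_le.1 hD2
  have r4 := abs_le.1 r2
  have r5 := abs_le.1 b1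
  rw [abs_le]
  constructor
  · have : G + 2 * ε * D + ε ^ 2 * H + ε * (p + ε * q) =
      2 * G - (G - ε * p) + 2 * ε * D + ε ^ 2 * H + ε ^ 2 * q := by ring
    rw [this]
    linarith
  · have : G + 2 * ε * D + ε ^ 2 * H + ε * (p + ε * q) =
      2 * G - (G - ε * p) + 2 * ε * D + ε ^ 2 * H + ε ^ 2 * q := by ring
    rw [this]
    linarith

end Vale.Agent.P233.H372
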